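import Crest.Agent.R193.E.L1
import Crest.Agent.R193.C.Osc

/-!
# R193/E/Abs: the abstract form (Γ-limit of the Cayley graph energies)
-/

set_option autoImplicit false
open Set Metric Filter Topology MeasureTheory

noncomputable section

namespace Crest.Agent.R193.EB

variable {G : Type} [Group G] {Z : Type} [MetricSpace Z] [CompactSpace Z] [MulAction G Z]
  (H : HA G Z) (S : Finset G)

/-- height of an edge -/
def eht (p : G × S) : ℕ := H.len p.1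

/-- discrete gradient -/
def dl (F : G → ℝ) (p : G × S) : ℝ := F p.1 - F (p.2 * p.1)

open Classical in
/-- the elements of length `t` -/
def lev (t : ℕ) : Finset G := (H.fin_ball t).toFinset.filter fun g => H.len g = t

/-- the edges of height `t` -/
def elv (t : ℕ) : Finset (G × S) := lev H t ×ˢ Finset.univ

theorem mem_lev {t : ℕ} {g : G} : g ∈ lev H t ↔ H.len g = t := by
  simp only [lev, Finset.mem_filter, Finite.mem_toFinset, mem_setOf_eq]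
  exact ⟨fun h => h.2, fun h => ⟨h.le, h⟩⟩

theorem mem_elv (t : ℕ) (p : G × S) : p ∈ elv H S t ↔ eht H S p = t := by
  simp [elv, mem_lev, eht]

/-- admissible sequences -/
structure Adm (w : Z → ℝ) (F : ℕ → G → ℝ) : Prop where
  cont : Continuous w
  bdd : ∃ M : ℝ, ∀ᶠ k in 𝒰, ∀ g, |F k g| ≤ M
  fl : Fl1 (eht H S) fun k p => dl S (F k) p ^ 2
  tend : ∀ ε : ℝ, 0 < ε → ∀ᶠ k : ℕ in 𝒰, ∀ g, ε * ((k : ℝ) + 1) ≤ H.len g → |F k g - w (H.ctr g)| ≤ ε

/-- limit energy with weight `χ` -/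
def En (χ : Z → ℝ) (F F' : ℕ → G → ℝ) : ℝ :=
  LI (eht H S) fun k p => χ (H.ctr p.1) * (dl S (F k) p * dl S (F' k) p)

/-- optimal sequences -/
def Opt (w : Z → ℝ) (F : ℕ → G → ℝ) : Prop :=
  Adm H S w F ∧ ∀ F', Adm H S (fun _ => 0) F' → En H S (fun _ => 1) F F' = 0

/-- the domain of the form -/
def DD (w : Z → ℝ) : Prop := ∃ F, Adm H S w F

/-- a chosen optimal sequence -/
def opt (w : Z → ℝ) : ℕ → G → ℝ := Classical.epsilon (Opt H S w)

/-- the form with weight `χ` -/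
def BB (χ w w' : Z → ℝ) : ℝ := En H S χ (opt H S w) (opt H S w')

variable {H S}

/-- square summable gradient fields -/
abbrev Fl2 (H : HA G Z) (S : Finset G) (F : ℕ → G → ℝ) : Prop :=
  Fl1 (eht H S) fun k p => dl S (F k) p ^ 2

theorem bdd_one : Bdd fun _ : Z => (1 : ℝ) := ⟨1, by simp⟩

theorem _root_.Crest.Agent.R193.Bdd.abs {χ : Z → ℝ} (h : Bdd χ) : Bdd fun y => |χ y| :=
  let ⟨M, hM⟩ := h; ⟨M, fun y => by rw [abs_abs]; exact hM y⟩

theorem _root_.Crest.Agent.R193.Bdd.lin {χ χ' : Z → ℝ} (h : Bdd χ) (h' : Bdd χ') (s t : ℝ) : Bdd fun y => s * χ y + t * χ' y := by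
  obtain ⟨M, hM⟩ := h
  obtain ⟨M', hM'⟩ := h'
  refine ⟨|s| * M + |t| * M', fun y => (abs_add_le _ _).trans ?_⟩
  rw [abs_mul, abs_mul]
  exact add_le_add (mul_le_mul_of_nonneg_left (hM y) (abs_nonneg _))
    (mul_le_mul_of_nonneg_left (hM' y) (abs_nonneg _))

theorem fl1_mul {I : Type} {ht : I → ℕ} {a b : ℕ → I → ℝ} (ha : Fl1 ht fun k p => a k p ^ 2)
    (hb : Fl1 ht fun k p => b k p ^ 2) {m : I → ℝ} (hm : Bdd m) :
    Fl1 ht fun k p => m p * (a k p * b k p) := by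
  obtain ⟨M, hM⟩ := hm
  refine ha.of_le_add hb (A := |M|) (B := |M|) (abs_nonneg _) (abs_nonneg _)
    (Eventually.of_forall fun k p => ?_)
  rw [abs_mul, abs_of_nonneg (sq_nonneg (a k p)), abs_of_nonneg (sq_nonneg (b k p)), ← mul_add]
  refine mul_le_mul ((hM p).trans (le_abs_self M)) (abs_le.2 ⟨?_, ?_⟩) (abs_nonneg _) (abs_nonneg _)
  · nlinarith [sq_nonneg (a k p + b k p)]
  · nlinarith [sq_nonneg (a k p - b k p)]

theorem fl1_sq_lin {I : Type} {ht : I → ℕ} {a b : ℕ → I → ℝ} (ha : Fl1 ht fun k p => a k p ^ 2)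
    (hb : Fl1 ht fun k p => b k p ^ 2) (s t : ℝ) : Fl1 ht fun k p => (s * a k p + t * b k p) ^ 2 := by
  refine ha.of_le_add hb (A := 2 * s ^ 2) (B := 2 * t ^ 2) (by positivity) (by positivity)
    (Eventually.of_forall fun k p => ?_)
  simp only [abs_pow, sq_abs]
  nlinarith [sq_nonneg (s * a k p - t * b k p)]

theorem Fl2.en {F F' : ℕ → G → ℝ} (h : Fl2 H S F) (h' : Fl2 H S F') {χ : Z → ℝ} (hχ : Bdd χ) :
    Fl1 (eht H S) fun k p => χ (H.ctr p.1) * (dl S (F k) p * dl S (F' k) p) :=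
  fl1_mul h h' (m := fun p => χ (H.ctr p.1)) (let ⟨M, hM⟩ := hχ; ⟨M, fun _ => hM _⟩)

theorem dl_lin (F F' : G → ℝ) (s t : ℝ) (p : G × S) :
    dl S (fun g => s * F g + t * F' g) p = s * dl S F p + t * dl S F' p := by
  simp only [dl]; ring

theorem Fl2.lin {F F' : ℕ → G → ℝ} (h : Fl2 H S F) (h' : Fl2 H S F') (s t : ℝ) :
    Fl2 H S fun k g => s * F k g + t * F' k g := by
  simpa only [Fl2, dl_lin] using fl1_sq_lin h h' s t

theorem En_symm (χ : Z → ℝ) (F F' : ℕ → G → ℝ) : En H S χ F F' = En H S χ F' F := by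
  simp only [En, mul_comm]

theorem En_lin {F F' F'' : ℕ → G → ℝ} (h : Fl2 H S F) (h' : Fl2 H S F') (h'' : Fl2 H S F'')
    {χ : Z → ℝ} (hχ : Bdd χ) (s t : ℝ) :
    En H S χ (fun k g => s * F k g + t * F' k g) F'' = s * En H S χ F F'' + t * En H S χ F' F'' := by
  rw [En, En, En, ← LI_lin (h.en h'' hχ) (h'.en h'' hχ)]
  congr 1
  funext k p
  rw [dl_lin]; ring

theorem En_lin_m {F F' : ℕ → G → ℝ} (h : Fl2 H S F) (h' : Fl2 H S F') {χ χ' : Z → ℝ} (hχ : Bdd χ)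
    (hχ' : Bdd χ') (s t : ℝ) :
    En H S (fun y => s * χ y + t * χ' y) F F' = s * En H S χ F F' + t * En H S χ' F F' := by
  rw [En, En, En, ← LI_lin (h.en h' hχ) (h.en h' hχ')]
  congr 1
  funext k p
  ring

theorem En_mono_m {F : ℕ → G → ℝ} (h : Fl2 H S F) {χ χ' : Z → ℝ} (hχ : Bdd χ) (hχ' : Bdd χ')
    (hle : ∀ y, χ y ≤ χ' y) : En H S χ F F ≤ En H S χ' F F :=
  LI_mono (h.en h hχ) (h.en h hχ') (Eventually.of_forall fun _ _ =>
    mul_le_mul_of_nonneg_right (hle _) (mul_self_nonneg _))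

theorem En_nonneg {F : ℕ → G → ℝ} (h : Fl2 H S F) {χ : Z → ℝ} (hχ : Bdd χ) (h0 : ∀ y, 0 ≤ χ y) :
    0 ≤ En H S χ F F :=
  LI_nonneg (h.en h hχ) fun _ _ => mul_nonneg (h0 _) (mul_self_nonneg _)

theorem En_abs_le {F F' : ℕ → G → ℝ} (h : Fl2 H S F) (h' : Fl2 H S F') {χ : Z → ℝ} (hχ : Bdd χ)
    {s : ℝ} (hs : 0 < s) : |En H S χ F F'| ≤
      s / 2 * En H S (fun y => |χ y|) F F + s⁻¹ / 2 * En H S (fun y => |χ y|) F' F' := by
  have key : ∀ m a b : ℝ, |m * (a * b)| ≤ s / 2 * (|m| * (a * a)) + s⁻¹ / 2 * (|m| * (b * b)) := by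
    intro m a b
    have h1 : |a * b| ≤ s / 2 * (a * a) + s⁻¹ / 2 * (b * b) := by
      have e : ∀ c : ℝ, s / 2 * (a * a) + s⁻¹ / 2 * (b * b) + c * (a * b) =
          s⁻¹ / 2 * ((s * a + c * b) ^ 2 + (1 - c ^ 2) * b ^ 2) := fun c => by field_simp; ring
      have e1 := e 1
      have e2 := e (-1)
      have p1 : 0 ≤ s⁻¹ / 2 * ((s * a + 1 * b) ^ 2 + (1 - 1 ^ 2) * b ^ 2) := by
        rw [one_pow, sub_self, zero_mul, add_zero]; positivity
      have p2 : 0 ≤ s⁻¹ / 2 * ((s * a + -1 * b) ^ 2 + (1 - (-1) ^ 2) * b ^ 2) := by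
        rw [neg_one_sq, sub_self, zero_mul, add_zero]; positivity
      exact abs_le.2 ⟨by linarith, by linarith⟩
    rw [abs_mul]
    nlinarith [mul_le_mul_of_nonneg_left h1 (abs_nonneg m)]
  refine abs_le.2 ⟨?_, LI_le_lin (h.en h' hχ) (h.en h hχ.abs) (h'.en h' hχ.abs) _ _
    fun k p => (le_abs_self _).trans (key _ _ _)⟩
  have h1 := LI_le_lin ((h.en h' hχ).lin (h.en h' hχ) (-1) 0) (h.en h hχ.abs) (h'.en h' hχ.abs)
    (s / 2) (s⁻¹ / 2) fun k p => by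
      rw [zero_mul, add_zero, neg_one_mul]; exact (neg_le_abs _).trans (key _ _ _)
  rw [LI_lin (h.en h' hχ) (h.en h' hχ)] at h1
  simp only [En]
  linarith

theorem eq_zero_of_abs_le {x A : ℝ} (h : ∀ s : ℝ, 0 < s → |x| ≤ s⁻¹ / 2 * A) : x = 0 := by
  by_contra hx
  have h0 := abs_pos.2 hx
  have h1 := h ((|A| + 1) / |x|) (by positivity)
  rw [inv_div, div_div, div_mul_eq_mul_div, le_div_iff₀ (by positivity)] at h1
  nlinarith [le_abs_self A, abs_nonneg A]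

theorem En_eq_zero {F F' : ℕ → G → ℝ} (h : Fl2 H S F) (h' : Fl2 H S F') {χ : Z → ℝ} (hχ : Bdd χ)
    (h0 : En H S (fun y => |χ y|) F F ≤ 0) : En H S χ F F' = 0 :=
  eq_zero_of_abs_le (A := En H S (fun y => |χ y|) F' F') fun s hs => by
    have := En_abs_le h h' hχ hs
    nlinarith

theorem En_eq_zero' {F F' : ℕ → G → ℝ} (h : Fl2 H S F) (h' : Fl2 H S F') {χ : Z → ℝ} (hχ : Bdd χ)
    (h0 : En H S (fun _ => 1) F F = 0) : En H S χ F F' = 0 := by
  obtain ⟨M, hM⟩ := id hχ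
  refine En_eq_zero h h' hχ ((En_mono_m h hχ.abs (bdd_one.lin bdd_one M 0)
    fun y => by simpa using hM y).trans_eq ?_)
  rw [En_lin_m h h bdd_one bdd_one, h0]; simp

theorem Adm.lin {w w' : Z → ℝ} {F F' : ℕ → G → ℝ} (h : Adm H S w F) (h' : Adm H S w' F') (s t : ℝ) :
    Adm H S (fun y => s * w y + t * w' y) fun k g => s * F k g + t * F' k g := by
  obtain ⟨M, hM⟩ := h.bdd
  obtain ⟨M', hM'⟩ := h'.bdd
  refine ⟨(h.cont.const_mul s).add (h'.cont.const_mul t), ⟨|s| * M + |t| * M', ?_⟩,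
    Fl2.lin h.fl h'.fl s t, fun ε hε => ?_⟩
  · filter_upwards [hM, hM'] with k a b g
    refine (abs_add_le _ _).trans ?_
    rw [abs_mul, abs_mul]
    exact add_le_add (mul_le_mul_of_nonneg_left (a g) (abs_nonneg _))
      (mul_le_mul_of_nonneg_left (b g) (abs_nonneg _))
  · set δ := ε / (|s| + |t| + 1) with hδ
    have hδ0 : 0 < δ := by positivity
    have hδε : δ * (|s| + |t| + 1) = ε := by rw [hδ]; field_simp
    have hst : 0 ≤ |s| + |t| := by positivity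
    filter_upwards [h.tend δ hδ0, h'.tend δ hδ0] with k a b g hg
    have hg' : δ * ((k : ℝ) + 1) ≤ H.len g :=
      (mul_le_mul_of_nonneg_right (by nlinarith) (by positivity)).trans hg
    have e : s * F k g + t * F' k g - (s * w (H.ctr g) + t * w' (H.ctr g)) =
        s * (F k g - w (H.ctr g)) + t * (F' k g - w' (H.ctr g)) := by ring
    rw [e]
    refine (abs_add_le _ _).trans ?_
    rw [abs_mul, abs_mul]
    nlinarith [mul_le_mul_of_nonneg_left (a g hg') (abs_nonneg s),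
      mul_le_mul_of_nonneg_left (b g hg') (abs_nonneg t)]

theorem Adm.sub {w : Z → ℝ} {F F' : ℕ → G → ℝ} (h : Adm H S w F) (h' : Adm H S w F') :
    Adm H S (fun _ => 0) fun k g => 1 * F k g + (-1) * F' k g := by
  simpa using h.lin h' 1 (-1)

theorem Opt.lin {w w' : Z → ℝ} {F F' : ℕ → G → ℝ} (h : Opt H S w F) (h' : Opt H S w' F') (s t : ℝ) :
    Opt H S (fun y => s * w y + t * w' y) fun k g => s * F k g + t * F' k g :=
  ⟨h.1.lin h'.1 s t, fun F'' h'' => by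
    rw [En_lin h.1.fl h'.1.fl h''.fl bdd_one, h.2 _ h'', h'.2 _ h'']; simp⟩

theorem Opt.le {w : Z → ℝ} {F F' : ℕ → G → ℝ} (h : Opt H S w F) (h' : Adm H S w F') :
    En H S (fun _ => 1) F F ≤ En H S (fun _ => 1) F' F' := by
  have hD := h'.sub h.1
  have h1 := En_nonneg hD.fl bdd_one fun _ => zero_le_one
  have h2 := h.2 _ hD
  rw [En_symm, En_lin h'.fl h.1.fl h.1.fl bdd_one] at h2
  rw [En_lin h'.fl h.1.fl hD.fl bdd_one, h.2 _ hD, En_symm, En_lin h'.fl h.1.fl h'.fl bdd_one,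
    En_symm _ F F'] at h1
  linarith

theorem Opt.en_eq {w : Z → ℝ} {F₁ F₂ F' : ℕ → G → ℝ} (h₁ : Opt H S w F₁) (h₂ : Opt H S w F₂)
    (h' : Fl2 H S F') {χ : Z → ℝ} (hχ : Bdd χ) : En H S χ F₁ F' = En H S χ F₂ F' := by
  have hD := h₁.1.sub h₂.1
  have h0 := En_eq_zero' hD.fl h' hχ (by
    rw [En_lin h₁.1.fl h₂.1.fl hD.fl bdd_one, h₁.2 _ hD, h₂.2 _ hD]; simp)
  rw [En_lin h₁.1.fl h₂.1.fl h' hχ] at h0
  linarith

theorem abs_clamp_sub (M x y : ℝ) : |max (-M) (min M x) - max (-M) (min M y)| ≤ |x - y| :=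
  (abs_max_sub_max_le_max _ _ _ _).trans (max_le (by simp)
    ((abs_min_sub_min_le_max _ _ _ _).trans (max_le (by simp) le_rfl)))

/-- diagonal sequences -/
theorem adm_diag {w : Z → ℝ} (hw : Continuous w) {q : ℝ} {W : ℕ → Z → ℝ} {F : ℕ → ℕ → G → ℝ}
    (hF : ∀ j, Adm H S (W j) (F j)) (hW : ∀ (j : ℕ) y, |W j y - w y| ≤ ((j : ℝ) + 1)⁻¹)
    (hq : ∀ j : ℕ, En H S (fun _ => 1) (F j) (F j) ≤ q + ((j : ℝ) + 1)⁻¹) :
    ∃ F', Adm H S w F' ∧ En H S (fun _ => 1) F' F' ≤ q := by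
  obtain ⟨M, hM⟩ := (isCompact_range hw).isBounded.exists_norm_le
  have hM' : ∀ y, |w y| ≤ |M| := fun y => (hM _ ⟨y, rfl⟩).trans (le_abs_self M)
  have hj : ∀ j : ℕ, (0 : ℝ) < ((j : ℝ) + 1)⁻¹ := fun j => by positivity
  have e1 : ∀ F : ℕ → G → ℝ, En H S (fun _ => 1) F F = LI (eht H S) fun k p => dl S (F k) p ^ 2 :=
    fun F => by simp only [En, one_mul, sq]
  obtain ⟨J, hJ, hP⟩ := exists_diag (P := fun j k =>
    (Summable fun p => ewt k (eht H S p) * dl S (F j k) p ^ 2) ∧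
    ∑' p, ewt k (eht H S p) * dl S (F j k) p ^ 2 ≤ q + 2 * ((j : ℝ) + 1)⁻¹ ∧
    ∀ g, ((j : ℝ) + 1)⁻¹ * ((k : ℝ) + 1) ≤ H.len g → |F j k g - W j (H.ctr g)| ≤ ((j : ℝ) + 1)⁻¹)
    fun j => (hF j).fl.summable.and (((hF j).fl.tendsto.eventually_le_const (by
      rw [← e1]; linarith [hq j, hj j])).and ((hF j).tend _ (hj j)))
  have hJ0 : Tendsto (fun k => ((J k : ℝ) + 1)⁻¹) 𝒰 (𝓝 0) := by
    simpa only [one_div, Function.comp_def] using
      (tendsto_one_div_add_atTop_nhds_zero_nat (𝕜 := ℝ)).comp hJ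
  set F' : ℕ → G → ℝ := fun k g => max (-|M|) (min |M| (F (J k) k g)) with hF'
  have hle : ∀ k p, ewt k (eht H S p) * dl S (F' k) p ^ 2 ≤ ewt k (eht H S p) * dl S (F (J k) k) p ^ 2 :=
    fun k p => mul_le_mul_of_nonneg_left (sq_le_sq.2 (abs_clamp_sub _ _ _)) (ewt_pos _ _).le
  have hs : ∀ᶠ k in 𝒰, (Summable fun p => ewt k (eht H S p) * dl S (F' k) p ^ 2) ∧
      ∑' p, ewt k (eht H S p) * dl S (F' k) p ^ 2 ≤ q + 2 * ((J k : ℝ) + 1)⁻¹ := hP.mono fun k hk => by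
    have h1 := Summable.of_nonneg_of_le (fun p => mul_nonneg (ewt_pos _ _).le (sq_nonneg _)) (hle k) hk.1
    exact ⟨h1, (h1.tsum_le_tsum (hle k) hk.1).trans hk.2.1⟩
  have hfl : Fl2 H S F' := ⟨q + 2, hs.mono fun k hk => by
    simp only [abs_pow, sq_abs]
    have : ((J k : ℝ) + 1)⁻¹ ≤ 1 := inv_le_one_of_one_le₀ (le_add_of_nonneg_left (Nat.cast_nonneg _))
    exact ⟨hk.1, by linarith [hk.2]⟩⟩
  refine ⟨F', ⟨hw, ⟨|M|, Eventually.of_forall fun k g => abs_le.2 ⟨le_max_left _ _,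
    max_le (by linarith [abs_nonneg M]) (min_le_left _ _)⟩⟩, hfl, fun ε hε => ?_⟩, ?_⟩
  · filter_upwards [hP, hJ0.eventually_le_const (half_pos hε)] with k hk h2 g hg
    have h3 := hk.2.2 g ((mul_le_mul_of_nonneg_right (by linarith) (by positivity)).trans hg)
    have h4 := abs_clamp_sub |M| (F (J k) k g) (w (H.ctr g))
    rw [min_eq_right (abs_le.1 (hM' _)).2, max_eq_right (abs_le.1 (hM' _)).1] at h4
    have h5 := abs_sub_le (F (J k) k g) (W (J k) (H.ctr g)) (w (H.ctr g))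
    linarith [hW (J k) (H.ctr g)]
  · rw [e1]
    have := (hJ0.const_mul 2).const_add q
    rw [mul_zero, add_zero] at this
    exact le_of_tendsto_of_tendsto hfl.tendsto this (hs.mono fun k hk => hk.2)

theorem DD.opt {w : Z → ℝ} (h : DD H S w) : Opt H S w (opt H S w) := by
  refine Classical.epsilon_spec (p := Opt H S w) ?_
  obtain ⟨F₀, h₀⟩ := h
  set A := {x | ∃ F, Adm H S w F ∧ En H S (fun _ => 1) F F = x}
  have hb : BddBelow A := ⟨0, by
    rintro _ ⟨F, hF, rfl⟩; exact En_nonneg hF.fl bdd_one fun _ => zero_le_one⟩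
  have hex : ∀ j : ℕ, ∃ F, Adm H S w F ∧ En H S (fun _ => 1) F F ≤ sInf A + ((j : ℝ) + 1)⁻¹ :=
    fun j => by
      obtain ⟨_, ⟨F, hF, rfl⟩, h2⟩ := exists_lt_of_csInf_lt (s := A) ⟨_, F₀, h₀, rfl⟩
        (lt_add_of_pos_right _ (by positivity : (0 : ℝ) < ((j : ℝ) + 1)⁻¹))
      exact ⟨F, hF, h2.le⟩
  choose F hF hq using hex
  obtain ⟨F', h1, h2⟩ := adm_diag h₀.cont hF (fun j y => by simp; positivity) hq
  refine ⟨F', h1, fun F'' h'' => ?_⟩
  set b := En H S (fun _ => 1) F' F''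
  set c := En H S (fun _ => 1) F'' F''
  have hc : 0 ≤ c := En_nonneg h''.fl bdd_one fun _ => zero_le_one
  have key : ∀ t : ℝ, 0 ≤ 2 * t * b + t ^ 2 * c := fun t => by
    have h3 := h1.lin h'' 1 t
    simp only [mul_zero, add_zero, one_mul (w _)] at h3
    have h4 := csInf_le hb ⟨_, h3, rfl⟩
    rw [En_lin h1.fl h''.fl h3.fl bdd_one, En_symm _ F', En_symm _ F'',
      En_lin h1.fl h''.fl h1.fl bdd_one, En_lin h1.fl h''.fl h''.fl bdd_one, En_symm _ F'' F'] at h4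
    nlinarith
  have h5 := key (-b / (c + 1))
  have h6 : 2 * (-b / (c + 1)) * b + (-b / (c + 1)) ^ 2 * c = -(b ^ 2 * (c + 2) / (c + 1) ^ 2) := by
    field_simp; ring
  rw [h6, neg_nonneg, div_nonpos_iff] at h5
  have h7 : b ^ 2 ≤ 0 := by
    rcases h5 with h5 | h5
    · nlinarith [h5.2]
    · nlinarith [h5.1, sq_nonneg b]
  exact pow_eq_zero_iff two_ne_zero |>.1 (le_antisymm h7 (sq_nonneg b))

theorem Opt.BB_eq {w w' : Z → ℝ} {F F' : ℕ → G → ℝ} (h : Opt H S w F) (h' : Opt H S w' F')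
    {χ : Z → ℝ} (hχ : Bdd χ) : BB H S χ w w' = En H S χ F F' := by
  have a := DD.opt ⟨F, h.1⟩
  have b := DD.opt ⟨F', h'.1⟩
  rw [BB, a.en_eq h b.1.fl hχ, En_symm, b.en_eq h' h.1.fl hχ, En_symm]

theorem DD.cont {w : Z → ℝ} (h : DD H S w) : Continuous w := let ⟨_, h⟩ := h; h.cont

theorem DD.lin {w w' : Z → ℝ} (h : DD H S w) (h' : DD H S w') (s t : ℝ) :
    DD H S fun y => s * w y + t * w' y :=
  let ⟨_, a⟩ := h; let ⟨_, b⟩ := h'; ⟨_, a.lin b s t⟩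

theorem BB_symm (χ w w' : Z → ℝ) : BB H S χ w w' = BB H S χ w' w := En_symm _ _ _

theorem BB_lin {w w' w'' : Z → ℝ} (h : DD H S w) (h' : DD H S w') (h'' : DD H S w'') {χ : Z → ℝ}
    (hχ : Bdd χ) (s t : ℝ) :
    BB H S χ (fun y => s * w y + t * w' y) w'' = s * BB H S χ w w'' + t * BB H S χ w' w'' := by
  rw [(h.opt.lin h'.opt s t).BB_eq h''.opt hχ, En_lin h.opt.1.fl h'.opt.1.fl h''.opt.1.fl hχ]
  rfl

theorem BB_lin_m {w w' : Z → ℝ} (h : DD H S w) (h' : DD H S w') {χ χ' : Z → ℝ} (hχ : Bdd χ)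
    (hχ' : Bdd χ') (s t : ℝ) :
    BB H S (fun y => s * χ y + t * χ' y) w w' = s * BB H S χ w w' + t * BB H S χ' w w' :=
  En_lin_m h.opt.1.fl h'.opt.1.fl hχ hχ' s t

theorem BB_mono_m {w : Z → ℝ} (h : DD H S w) {χ χ' : Z → ℝ} (hχ : Bdd χ) (hχ' : Bdd χ')
    (hle : ∀ y, χ y ≤ χ' y) : BB H S χ w w ≤ BB H S χ' w w := En_mono_m h.opt.1.fl hχ hχ' hle

theorem BB_nonneg {w : Z → ℝ} (h : DD H S w) : 0 ≤ BB H S (fun _ => 1) w w :=
  En_nonneg h.opt.1.fl bdd_one fun _ => zero_le_one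

theorem BB_abs_le {w w' : Z → ℝ} (h : DD H S w) (h' : DD H S w') {χ : Z → ℝ} (hχ : Bdd χ) {s : ℝ}
    (hs : 0 < s) : |BB H S χ w w'| ≤
      s / 2 * BB H S (fun y => |χ y|) w w + s⁻¹ / 2 * BB H S (fun y => |χ y|) w' w' :=
  En_abs_le h.opt.1.fl h'.opt.1.fl hχ hs

theorem BB_eq_zero {w w' : Z → ℝ} (h : DD H S w) (h' : DD H S w') {χ : Z → ℝ} (hχ : Bdd χ)
    (h0 : BB H S (fun y => |χ y|) w w ≤ 0) : BB H S χ w w' = 0 :=
  En_eq_zero h.opt.1.fl h'.opt.1.fl hχ h0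

/-- lower semicontinuity -/
theorem BB_lsc {w : Z → ℝ} (hw : DD H S w) {q : ℝ}
    (h : ∀ ε : ℝ, 0 < ε → ∃ w', DD H S w' ∧ (∀ y, |w' y - w y| ≤ ε) ∧ BB H S (fun _ => 1) w' w' ≤ q) :
    BB H S (fun _ => 1) w w ≤ q := by
  choose W h1 h2 h3 using fun j : ℕ => h ((j : ℝ) + 1)⁻¹ (by positivity)
  obtain ⟨F', a, b⟩ := adm_diag hw.cont (q := q) (fun j => (h1 j).opt.1) h2
    fun j => (h3 j).trans (le_add_of_nonneg_right (by positivity))
  exact (hw.opt.le a).trans b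

/-- weak continuity -/
theorem BB_weak {u : ℕ → Z → ℝ} (hu : ∀ j, DD H S (u j)) {M : ℝ}
    (hM : ∀ j, BB H S (fun _ => 1) (u j) (u j) ≤ M)
    (h0 : ∀ ε : ℝ, 0 < ε → ∀ᶠ j in atTop, ∀ y, |u j y| ≤ ε) {h : Z → ℝ} (hh : DD H S h) :
    Tendsto (fun j => BB H S (fun _ => 1) (u j) h) atTop (𝓝 0) := by
  have hM0 : 0 ≤ M := (BB_nonneg (hu 0)).trans (hM 0)
  have key : ∀ s : ℝ, |s| = 1 → ∀ c : ℝ, 0 < c → ∀ᶠ j in atTop, s * BB H S (fun _ => 1) (u j) h < c := by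
    intro s hs c hc
    by_contra hcon
    rw [not_eventually] at hcon
    set t := c / (M + 1) with ht
    have ht0 : 0 < t := by positivity
    have hs2 : s ^ 2 = 1 := by rw [← sq_abs, hs, one_pow]
    have h1 := BB_lsc hh (q := BB H S (fun _ => 1) h h - 2 * t * c + t ^ 2 * M) fun ε hε => by
      obtain ⟨j, a, b⟩ := (hcon.and_eventually (h0 (ε / t) (by positivity))).exists
      have hd := hh.lin (hu j) 1 (-(s * t))
      refine ⟨_, hd, fun y => ?_, ?_⟩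
      · rw [one_mul, add_sub_cancel_left, abs_mul, abs_neg, abs_mul, hs, one_mul, abs_of_pos ht0,
          ← le_div_iff₀' ht0]
        exact b y
      · rw [BB_lin hh (hu j) hd bdd_one, BB_symm _ h, BB_symm _ (u j), BB_lin hh (hu j) hh bdd_one,
          BB_lin hh (hu j) (hu j) bdd_one, BB_symm _ h (u j)]
        have a' := not_lt.1 a
        have e : ∀ x y z : ℝ, 1 * (1 * x + -(s * t) * y) + -(s * t) * (1 * y + -(s * t) * z) =
            x - 2 * t * (s * y) + s ^ 2 * t ^ 2 * z := fun x y z => by ring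
        rw [e, hs2, one_mul]
        nlinarith [mul_le_mul_of_nonneg_left (hM j) (sq_nonneg t), mul_le_mul_of_nonneg_left a' ht0.le]
    have h2 : t * (M + 1) = c := by rw [ht]; field_simp
    nlinarith [mul_pos ht0 ht0, mul_pos ht0 hc]
  refine Metric.tendsto_nhds.2 fun c hc => ?_
  filter_upwards [key 1 abs_one c hc, key (-1) (by simp) c hc] with j a b
  rw [Real.dist_eq, sub_zero]
  exact abs_lt.2 ⟨by linarith, by linarith⟩

end Crest.Agent.R193.EB
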