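import Crest.Agent.R193.E.UB

/-!
# R193/E/Dom: test functions are in the domain; the coefficient matrix
-/

set_option autoImplicit false
open Set Metric Filter Topology MeasureTheory

noncomputable section

namespace Crest.Agent.R193.EB

variable {G : Type} [Group G] {Z : Type} [MetricSpace Z] [CompactSpace Z] [MulAction G Z]
  {H : HA G Z} {φ : Z → ℂ} {V : Set Z} {lam : G → ℝ} {S : Finset G}

theorem bdd_of_ev {x : ℕ → ℝ} {c : ℝ} (h : ∀ᶠ t in atTop, x t ≤ c) : ∃ M, ∀ t, x t ≤ M :=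
  let ⟨M, hM⟩ := (isBoundedUnder_of_eventually_le h).bddAbove_range
  ⟨M, fun t => hM ⟨t, rfl⟩⟩

theorem Wt.abs {η : Z → ℝ} (h : Wt H S η) : Wt H S fun y => |η y| :=
  let ⟨M, hM⟩ := h.2
  ⟨h.1.abs, M, fun t => (Finset.sum_le_sum fun _ _ => sq_le_sq.2 (abs_abs_sub_abs_le _ _)).trans (hM t)⟩

theorem wt_ext (hφ : QC φ V) (hG : Geo H φ V lam) {f : ℂ → ℝ} (hf : Tst (φ '' V) f) :
    Wt H S (ext φ V f) := by
  obtain ⟨C, -, hC⟩ := level_ub hφ hG S
  refine ⟨ext_bdd hf.bdd, ?_⟩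
  simpa only [one_mul] using bdd_of_ev (hC f hf (fun _ => 1) 1 uniformContinuous_const
    (fun _ => ⟨zero_le_one, le_rfl⟩) (fun _ => 1) (fun _ _ => le_rfl) 1 one_pos)

theorem dd_ext (hφ : QC φ V) (hG : Geo H φ V lam) {f : ℂ → ℝ} (hf : Tst (φ '' V) f) :
    DD H S (ext φ V f) := ⟨_, (wt_ext hφ hG hf).adm (ext_cont hφ hf)⟩

theorem BB_ub (hφ : QC φ V) (hG : Geo H φ V lam) (S : Finset G) : ∃ C : ℝ, 0 ≤ C ∧
    ∀ f, Tst (φ '' V) f → ∀ (η : ℂ → ℝ) (M : ℝ), UniformContinuous η → (∀ z, 0 ≤ η z ∧ η z ≤ M) →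
      ∀ η' : Z → ℝ, Wt H S η' → (∀ y, 0 ≤ η' y) → (∀ y ∈ V, η' y ≤ η (φ y)) →
        BB H S η' (ext φ V f) (ext φ V f) ≤ C * ∫ z, η z * gr f z := by
  obtain ⟨C, hC0, hC⟩ := level_ub hφ hG S
  refine ⟨2 * C, by positivity, fun f hf η M h1 h2 η' h3 h4 h5 => ?_⟩
  have h := hC f hf η M h1 h2 η' h5
  simp only [sq] at h
  obtain ⟨B, hB⟩ := bdd_of_ev (h 1 one_pos)
  refine (BB_le_En ((wt_ext hφ hG hf).adm (ext_cont hφ hf)) h3 h4).trans ?_
  rw [mul_assoc]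
  exact (LI_level (mem_elv H S) (fun _ _ => mul_nonneg (h4 _) (mul_self_nonneg _))
    (mul_nonneg hC0 (integral_nonneg fun z => mul_nonneg (h2 z).1 (gr_nonneg f z)))
    (Eventually.of_forall fun _ => hB) fun ε hε => (ev_of_atTop (h ε hε) hε)).2

theorem dxy_eq_zero {f : ℂ → ℝ} {z : ℂ} (hz : z ∉ tsupport f) : dx f z = 0 ∧ dy f z = 0 := by
  have : fderiv ℝ f z = 0 := by_contra fun h => hz (support_fderiv_subset ℝ h)
  simp [dx, dy, this]

theorem exists_rep (hφ : QC φ V) (hG : Geo H φ V lam) (S : Finset G) {z₀ : ℂ} {r₀ : ℝ}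
    (hB : closedBall z₀ r₀ ⊆ φ '' V) : ∃ (C : ℝ) (a₁ a₂ a₃ : ℂ → ℝ), 0 ≤ C ∧
      (Measurable a₁ ∧ Measurable a₂ ∧ Measurable a₃) ∧ (∀ z, |a₁ z| ≤ C ∧ |a₂ z| ≤ C ∧ |a₃ z| ≤ C) ∧
      ∀ f h, Tst (ball z₀ r₀) f → Tst (ball z₀ r₀) h →
        BB H S (fun _ => 1) (ext φ V f) (ext φ V h) = ∫ z, qf a₁ a₂ a₃ f h z := by
  obtain ⟨C, hC0, hC⟩ := BB_ub hφ hG S
  have hT : Tri (φ '' V) (fun χ f h => BB H S (ext φ V χ) (ext φ V f) (ext φ V h)) C :=
    { lin₁ := fun f h hf hh χ χ' s t a b => by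
        simp only [ext_lin]
        exact BB_lin_m (dd_ext hφ hG hf) (dd_ext hφ hG hh) (ext_bdd a.bdd) (ext_bdd b.bdd) s t
      lin₂ := fun χ h hχ hh f f' s t a b => by
        simp only [ext_lin]
        exact BB_lin (dd_ext hφ hG a) (dd_ext hφ hG b) (dd_ext hφ hG hh) (ext_bdd hχ.bdd) s t
      symm := fun _ _ _ => BB_symm _ _ _
      bd := fun χ f h s hχ hf hh hs => by
        obtain ⟨M, hM⟩ := hχ.bdd
        have k := fun f hf => hC f hf (fun z => |χ z|) M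
          (Real.uniformContinuous_abs.comp (hχ.2.1.uniformContinuous_of_continuous hχ.cont))
          (fun z => ⟨abs_nonneg _, hM z⟩) _ (wt_ext hφ hG hχ).abs (fun _ => abs_nonneg _)
          fun y hy => by rw [ext_of_mem χ hy]
        exact (BB_abs_le (dd_ext hφ hG hf) (dd_ext hφ hG hh) (ext_bdd hχ.bdd) hs).trans (add_le_add
          (mul_le_mul_of_nonneg_left (k f hf) (by positivity))
          (mul_le_mul_of_nonneg_left (k h hh) (by positivity))) }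
  obtain ⟨a₁, a₂, a₃, hm, hb, hr⟩ := hT.rep hC0 (hφ.openMap V Subset.rfl hφ.isOpen) hB
  refine ⟨C, a₁, a₂, a₃, hC0, hm, hb, fun f h hf hh => ?_⟩
  have hB' := ball_subset_closedBall.trans hB
  obtain ⟨χ, c1, c2, c3⟩ := exists_cut hf.2.1.isCompact isOpen_ball hf.2.2
  have hf' := dd_ext (S := S) hφ hG (hf.mono hB')
  have hh' := dd_ext (S := S) hφ hG (hh.mono hB')
  have hw := (Wt.const (H := H) (S := S) 1).lin (wt_ext hφ hG (c1.mono hB')) 1 (-1)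
  have h0 := hC f (hf.mono hB') (fun z => |1 * 1 + -1 * χ z|) 1
    (Real.uniformContinuous_abs.comp (uniformContinuous_const.add
      ((c1.2.1.uniformContinuous_of_continuous c1.cont).const_smul (-1 : ℝ))))
    (fun z => ⟨abs_nonneg _, abs_le.2 ⟨by linarith [(c3 z).2], by linarith [(c3 z).1]⟩⟩) _ hw.abs
    (fun _ => abs_nonneg _) fun y hy => by rw [ext_of_mem χ hy]
  rw [integral_eq_zero_of_ae (Eventually.of_forall fun z => by
    by_cases hz : z ∈ tsupport f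
    · simp [c2.self_of_nhdsSet z hz]
    · simp [gr, dxy_eq_zero hz]), mul_zero] at h0
  have h1 := BB_lin_m hf' hh' bdd_one (ext_bdd (φ := φ) (V := V) c1.bdd) 1 (-1)
  rw [BB_eq_zero hf' hh' hw.1 h0] at h1
  have h2 := hr χ f h c1 (hf.mono hB') (hh.mono hB')
  have h3 : ∫ z, χ z * qf a₁ a₂ a₃ f h z = ∫ z, qf a₁ a₂ a₃ f h z := by
    congr 1; funext z
    by_cases hz : z ∈ tsupport f
    · rw [c2.self_of_nhdsSet z hz, one_mul]
    · simp [qf, dxy_eq_zero hz]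
  linarith

end Crest.Agent.R193.EB
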