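import Crest.Agent.R193.E.Itp
import Crest.Agent.R193.E.Dom

/-!
# R193/E/Apx: approximation by test functions with controlled Dirichlet energy
-/

set_option autoImplicit false
open Set Metric Filter Topology MeasureTheory

noncomputable section

namespace Crest.Agent.R193.EB

/-- soft thresholding -/
def sth (ε x : ℝ) : ℝ := x - max (-ε) (min ε x)

theorem abs_sth_sub {ε : ℝ} (hε : 0 ≤ ε) (x : ℝ) : |sth ε x - x| ≤ ε := by
  rw [sth, sub_sub_cancel_left, abs_neg]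
  exact abs_le.2 ⟨le_max_left _ _, max_le (by linarith) (min_le_left _ _)⟩

theorem sth_eq_zero {ε x : ℝ} (h : |x| ≤ ε) : sth ε x = 0 := by
  rw [sth, min_eq_right (abs_le.1 h).2, max_eq_right (abs_le.1 h).1, sub_self]

theorem sth_lip (ε x y : ℝ) : (sth ε x - sth ε y) ^ 2 ≤ (y - x) ^ 2 := by
  refine sq_le_sq.2 (abs_le.2 ?_)
  have h1 := le_abs_self (y - x)
  have h2 := neg_abs_le (y - x)
  have h3 := abs_nonneg (y - x)
  simp only [sth, max_def, min_def]
  split_ifs <;> constructor <;> linarith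

variable {G : Type} [Group G] {Z : Type} [MetricSpace Z] [CompactSpace Z] [MulAction G Z]
  {H : HA G Z} {φ : Z → ℂ} {V : Set Z} {lam : G → ℝ}

theorem approx_one (hφ : QC φ V) (hG : Geo H φ V lam) : ∃ (S : Finset G) (C : ℝ), 0 ≤ C ∧
    ∀ Ω : Set ℂ, IsOpen Ω → ∀ w, DD H S w → tsupport w ⊆ V ∩ φ ⁻¹' Ω → ∀ ε : ℝ, 0 < ε → ε ≤ 1 →
      ∃ f, Tst Ω f ∧ (∀ y, |ext φ V f y - w y| ≤ 3 * ε) ∧
        dir f ≤ C * (BB H S (fun _ => 1) w w + ε) := by
  classical
  obtain ⟨A, hA, hb⟩ := hG.big H.C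
  obtain ⟨M, hM⟩ := hG.inv (2 * A)
  obtain ⟨N, hN⟩ := hG.mult hφ (2 * A)
  obtain ⟨R, hR⟩ := H.nbr_of_close (2 * M)
  obtain ⟨C, hC0, hC⟩ := interp
  simp only [mul_assoc] at hM hN
  refine ⟨(H.fin_ball R).toFinset, C * N * 9, by positivity, fun Ω hΩ w hw hs ε hε hε1 => ?_⟩
  set S := (H.fin_ball R).toFinset
  have hF := hw.opt.1
  set F := opt H S w
  have hK₀ : IsCompact (tsupport w) := isClosed_closure.isCompact
  have hsV := hs.trans inter_subset_left
  obtain ⟨δ₀, hδ₀, h₁⟩ := hK₀.exists_cthickening_subset_open hφ.isOpen hsV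
  set K₁ := cthickening δ₀ (tsupport w)
  have hK₁ : IsCompact K₁ := isClosed_cthickening.isCompact
  obtain ⟨δ₁, hδ₁, h₂⟩ := (hK₀.image_of_continuousOn (hφ.cont.mono hsV)).exists_cthickening_subset_open hΩ
    (image_subset_iff.2 (hs.trans inter_subset_right))
  obtain ⟨δ₂, hδ₂, hu⟩ := Metric.uniformContinuous_iff.1
    (CompactSpace.uniformContinuous_of_continuous hF.cont) ε hε
  obtain ⟨k, ⟨t, ht, hE⟩, hk, ha⟩ := ((exists_level (mem_elv H S) (fun _ _ => sq_nonneg _) hF.fl hε).and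
    ((hF.tend ε hε).and (ev_of_atTop ((hb K₁ hK₁ h₁).and ((hM K₁ hK₁ h₁).and ((hN K₁ hK₁ h₁).and
      ((hG.pos K₁ hK₁ h₁).and ((hG.small K₁ hK₁ h₁ (δ₁ / (2 * A)) (by positivity)).and
        ((ev_small H H.C (half_pos hδ₀)).and ((ev_small H M (half_pos hδ₀)).and
          (ev_small H M hδ₂)))))))) one_pos))).exists
  have ht' : (k : ℝ) + 1 ≤ t := by exact_mod_cast ht
  obtain ⟨a1, a2, a3, a4, a5, a6, a7, a8⟩ := ha t (by rwa [one_mul])
  set T := (lev H t).filter fun g => H.ctr g ∈ K₁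
  have hT : ∀ g ∈ T, H.len g = t ∧ H.ctr g ∈ K₁ := fun g hg =>
    ⟨(mem_lev H).1 (Finset.mem_filter.1 hg).1, (Finset.mem_filter.1 hg).2⟩
  have hk' : ∀ g ∈ T, |F k g - w (H.ctr g)| ≤ ε := fun g hg => hk g (by
    rw [(hT g hg).1]; exact (mul_le_of_le_one_left (by positivity) hε1).trans ht')
  have key : ∀ g ∈ T, ∀ z ∈ ball (φ (H.ctr g)) (2 * (A * lam g)),
      ∃ y ∈ V, φ y = z ∧ dist y (H.ctr g) ≤ M * H.θ ^ t := fun g hg z hz => by
    simpa only [(hT g hg).1] using a2 g (hT g hg).1 (hT g hg).2 z (mem_ball_iff_norm.1 hz).le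
  have cov : ∀ y, ∀ x ∈ tsupport w, dist y x ≤ δ₀ / 2 →
      ∃ j ∈ T, φ y ∈ closedBall (φ (H.ctr j)) (A * lam j) := fun y x hx hd => by
    obtain ⟨j, j1, j2⟩ := H.surj y t
    have j3 : H.ctr j ∈ K₁ := mem_cthickening_of_dist_le _ x _ _ hx (by
      linarith [dist_triangle (H.ctr j) y x])
    exact ⟨j, Finset.mem_filter.2 ⟨(mem_lev H).2 j1, j3⟩,
      mem_closedBall_iff_norm.2 (a1 j j1 j3 y (by rwa [dist_comm, j1])).2⟩
  have hv : ∀ g ∈ T, sth ε (F k g) ≠ 0 → H.ctr g ∈ tsupport w := fun g hg h =>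
    subset_closure fun h0 : w (H.ctr g) = 0 => h (sth_eq_zero (by simpa [h0] using hk' g hg))
  have hcov : ∀ g ∈ T, sth ε (F k g) ≠ 0 → ∀ z ∈ ball (φ (H.ctr g)) (2 * (A * lam g)),
      ∃ j ∈ T, z ∈ closedBall (φ (H.ctr j)) (A * lam j) := fun g hg h z hz => by
    obtain ⟨y, -, rfl, hy⟩ := key g hg z hz
    exact cov y _ (hv g hg h) (hy.trans a7.le)
  obtain ⟨f, f1, f2, f3, f4, f5⟩ := hC T (fun g => φ (H.ctr g)) (fun g => A * lam g)
    (fun g => sth ε (F k g)) (fun g => ∑ σ : S, dl S (F k) (g, σ) ^ 2) N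
    (fun g hg => mul_pos hA (a4 g (hT g hg).1 (hT g hg).2)) (a3 T hT) hcov fun i hi j hj z zi zj => by
      obtain ⟨y, y1, y2, y3⟩ := key i hi z zi
      obtain ⟨y', y1', y2', y3'⟩ := key j hj z zj
      obtain rfl := hφ.inj y1 y1' (y2.trans y2'.symm)
      have h1 := hR i j ((hT i hi).1.trans (hT j hj).1.symm) (by
        rw [(hT i hi).1]; linarith [dist_triangle_left (H.ctr i) (H.ctr j) y])
      refine (sth_lip _ _ _).trans (le_trans (le_of_eq ?_) (Finset.single_le_sum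
        (f := fun σ : S => dl S (F k) (i, σ) ^ 2) (fun _ _ => sq_nonneg _)
        (Finset.mem_univ ⟨j * i⁻¹, (Finite.mem_toFinset _).2 h1⟩)))
      simp [dl]
  refine ⟨f, ⟨f1, f2, fun z hz => ?_⟩, fun y => ?_, f5.trans ?_⟩
  · obtain ⟨g, hg, h1, h2⟩ := f3 z hz
    have := (le_div_iff₀ (by positivity)).1 (a5 g (hT g hg).1 (hT g hg).2)
    exact h₂ (mem_cthickening_of_dist_le z _ _ _ (mem_image_of_mem φ (hv g hg h1))
      (by linarith [mem_ball.1 h2]))
  · by_cases hy : y ∈ V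
    swap
    · rw [ext_of_notMem f hy, image_eq_zero_of_notMem_tsupport fun h => hy (hsV h), sub_self, abs_zero]
      positivity
    rw [ext_of_mem f hy]
    by_cases hc : ∃ j ∈ T, φ y ∈ closedBall (φ (H.ctr j)) (A * lam j)
    · refine f4 _ _ _ hc fun i hi h => ?_
      obtain ⟨y', y1, y2, y3⟩ := key i hi _ h
      obtain rfl := hφ.inj y1 hy y2
      have h1 := hu (y3.trans_lt a8)
      rw [Real.dist_eq, abs_sub_comm] at h1
      linarith [abs_sub_le (sth ε (F k i)) (F k i) (w y'), abs_sub_le (F k i) (w (H.ctr i)) (w y'),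
        abs_sth_sub hε.le (F k i), hk' i hi]
    · rw [image_eq_zero_of_notMem_tsupport (f := f) fun h => hc (let ⟨i, a, b, d⟩ := f3 _ h; hcov i a b _ d),
        image_eq_zero_of_notMem_tsupport (f := w) fun h => hc (cov y y h (by rw [dist_self]; positivity)),
        sub_self, abs_zero]
      positivity
  · rw [mul_assoc _ (9 : ℝ)]
    refine mul_le_mul_of_nonneg_left ((Finset.sum_le_sum_of_subset_of_nonneg (Finset.filter_subset _ _)
      fun _ _ _ => Finset.sum_nonneg fun _ _ => sq_nonneg _).trans ?_) (by positivity)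
    rw [elv, Finset.sum_product] at hE
    simpa only [BB, En, one_mul, sq] using hE

theorem approx_seq (hφ : QC φ V) (hG : Geo H φ V lam) : ∃ (S : Finset G) (C : ℝ), 0 ≤ C ∧
    ∀ Ω : Set ℂ, IsOpen Ω → Ω ⊆ φ '' V → ∀ w, DD H S w → tsupport w ⊆ V ∩ φ ⁻¹' Ω →
      ∃ f : ℕ → ℂ → ℝ, (∀ j, Tst Ω (f j)) ∧ TendstoUniformly (fun j => ext φ V (f j)) w atTop ∧
        (∀ j : ℕ, dir (f j) ≤ C * (BB H S (fun _ => 1) w w + 1 / ((j : ℝ) + 1))) ∧
        ∀ h, DD H S h → Tendsto (fun j => BB H S (fun _ => 1) (ext φ V (f j)) h) atTop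
          (𝓝 (BB H S (fun _ => 1) w h)) := by
  obtain ⟨S, C, hC0, hC⟩ := approx_one hφ hG
  obtain ⟨C', hC0', hC'⟩ := BB_ub hφ hG S
  refine ⟨S, C, hC0, fun Ω hΩ hΩ' w hw hs => ?_⟩
  have hj : ∀ j : ℕ, 1 / ((j : ℝ) + 1) ≤ 1 := fun j =>
    (div_le_one (by positivity)).2 (le_add_of_nonneg_left (Nat.cast_nonneg _))
  choose f f1 f2 f3 using fun j : ℕ => hC Ω hΩ w hw hs (1 / ((j : ℝ) + 1)) (by positivity) (hj j)
  have h0 : ∀ ε : ℝ, 0 < ε → ∀ᶠ j in atTop, ∀ y, |ext φ V (f j) y - w y| < ε := fun ε hε => by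
    filter_upwards [(tendsto_one_div_add_atTop_nhds_zero_nat (𝕜 := ℝ)).eventually_lt_const
      (by positivity : 0 < ε / 3)] with j h y
    linarith [f2 j y]
  refine ⟨f, f1, Metric.tendstoUniformly_iff.2 fun ε hε => (h0 ε hε).mono fun j h y => by
    rw [Real.dist_eq, abs_sub_comm]; exact h y, f3, fun h hh => ?_⟩
  have hd : ∀ j, DD H S (ext φ V (f j)) := fun j => dd_ext hφ hG ((f1 j).mono hΩ')
  set Q := BB H S (fun _ => 1) w w
  have h1 := BB_weak (fun j => (hd j).lin hw 1 (-1)) (M := 2 * (C' * (C * (Q + 1))) + 2 * Q) (fun j => by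
    have e1 := hC' _ ((f1 j).mono hΩ') (fun _ => 1) 1 uniformContinuous_const
      (fun _ => ⟨zero_le_one, le_rfl⟩) _ (Wt.const 1) (fun _ => zero_le_one) fun _ _ => le_rfl
    simp only [one_mul] at e1
    have e2 := e1.trans (mul_le_mul_of_nonneg_left ((f3 j).trans (mul_le_mul_of_nonneg_left
      (add_le_add_right (hj j) Q) hC0)) hC0')
    have e3 := BB_abs_le (hd j) hw bdd_one one_pos
    simp only [abs_one, inv_one] at e3
    rw [BB_lin (hd j) hw ((hd j).lin hw _ _) bdd_one, BB_symm _ (ext φ V (f j)), BB_symm _ w,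
      BB_lin (hd j) hw (hd j) bdd_one, BB_lin (hd j) hw hw bdd_one, BB_symm _ w (ext φ V (f j))]
    linarith [(abs_le.1 e3).1])
    (fun ε hε => (h0 ε hε).mono fun j a y => by
      rw [one_mul, neg_one_mul, ← sub_eq_add_neg]; exact (a y).le) hh
  simp only [BB_lin (hd _) hw hh bdd_one] at h1
  simpa using h1.add_const (BB H S (fun _ => 1) w h)

end Crest.Agent.R193.EB
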