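import Crest.Agent.R193.E.Abs

/-!
# R193/E/Tst: test functions; duality `L¹`–`L^∞`; local to global
-/

set_option autoImplicit false
open Set Metric Filter Topology MeasureTheory

noncomputable section

namespace Crest.Agent.R193.EB

variable {Ω : Set ℂ} {f h χ : ℂ → ℝ}

/-- squared gradient -/
def gr (f : ℂ → ℝ) (z : ℂ) : ℝ := dx f z ^ 2 + dy f z ^ 2

theorem gr_nonneg (f : ℂ → ℝ) (z : ℂ) : 0 ≤ gr f z := by unfold gr; positivity

theorem _root_.Crest.Agent.R193.Tst.mono {Ω' : Set ℂ} (hf : Tst Ω f) (h : Ω ⊆ Ω') : Tst Ω' f := ⟨hf.1, hf.2.1, hf.2.2.trans h⟩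

theorem _root_.Crest.Agent.R193.Tst.cont (hf : Tst Ω f) : Continuous f := hf.1.continuous

theorem _root_.Crest.Agent.R193.Tst.diff (hf : Tst Ω f) : Differentiable ℝ f := hf.1.differentiable (by simp)

theorem _root_.Crest.Agent.R193.Tst.cont_fderiv (hf : Tst Ω f) : Continuous (fderiv ℝ f) := hf.1.continuous_fderiv (by simp)

theorem _root_.Crest.Agent.R193.Tst.cont_dx (hf : Tst Ω f) : Continuous (dx f) := hf.cont_fderiv.clm_apply continuous_const

theorem _root_.Crest.Agent.R193.Tst.cont_dy (hf : Tst Ω f) : Continuous (dy f) := hf.cont_fderiv.clm_apply continuous_const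

theorem _root_.Crest.Agent.R193.Tst.cont_gr (hf : Tst Ω f) : Continuous (gr f) := (hf.cont_dx.pow 2).add (hf.cont_dy.pow 2)

theorem _root_.Crest.Agent.R193.Tst.cs_gr (hf : Tst Ω f) : HasCompactSupport (gr f) :=
  (hf.2.1.fderiv (𝕜 := ℝ)).comp_left (g := fun L : ℂ →L[ℝ] ℝ => L 1 ^ 2 + L Complex.I ^ 2) (by simp)

theorem _root_.Crest.Agent.R193.Tst.eq_zero (hf : Tst Ω f) {z : ℂ} (hz : z ∉ Ω) : f z = 0 :=
  image_eq_zero_of_notMem_tsupport fun h => hz (hf.2.2 h)

theorem _root_.Crest.Agent.R193.Tst.bdd (hf : Tst Ω f) : Bdd f :=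
  let ⟨M, hM⟩ := hf.cont.bounded_above_of_compact_support hf.2.1; ⟨M, hM⟩

theorem _root_.Crest.Agent.R193.Tst.mul_right (hf : Tst Ω f) (hh : ContDiff ℝ (⊤ : ℕ∞) h) : Tst Ω fun z => f z * h z :=
  ⟨hf.1.mul hh, hf.2.1.mul_right, (tsupport_mul_subset_left).trans hf.2.2⟩

theorem _root_.Crest.Agent.R193.Tst.mul_left (hf : Tst Ω f) (hh : ContDiff ℝ (⊤ : ℕ∞) h) : Tst Ω fun z => h z * f z := by
  simpa only [mul_comm] using hf.mul_right hh

theorem _root_.Crest.Agent.R193.Tst.lin (hf : Tst Ω f) (hh : Tst Ω h) (s t : ℝ) : Tst Ω fun z => s * f z + t * h z := by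
  have a := hf.mul_left (h := fun _ => s) contDiff_const
  have b := hh.mul_left (h := fun _ => t) contDiff_const
  exact ⟨a.1.add b.1, a.2.1.add b.2.1, (tsupport_add _ _).trans (union_subset a.2.2 b.2.2)⟩

theorem tst_zero (Ω : Set ℂ) : Tst Ω fun _ => 0 :=
  ⟨contDiff_const, HasCompactSupport.zero, by simp [tsupport]⟩

theorem _root_.Crest.Agent.R193.Tst.dx_lin (hf : Tst Ω f) (hh : Tst Ω h) (s t : ℝ) (z : ℂ) :
    dx (fun z => s * f z + t * h z) z = s * dx f z + t * dx h z := by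
  have := ((hf.diff z).hasFDerivAt.const_mul s).add ((hh.diff z).hasFDerivAt.const_mul t)
  rw [dx, show fderiv ℝ (fun z => s * f z + t * h z) z = _ from this.fderiv]
  simp [dx]

theorem _root_.Crest.Agent.R193.Tst.dy_lin (hf : Tst Ω f) (hh : Tst Ω h) (s t : ℝ) (z : ℂ) :
    dy (fun z => s * f z + t * h z) z = s * dy f z + t * dy h z := by
  have := ((hf.diff z).hasFDerivAt.const_mul s).add ((hh.diff z).hasFDerivAt.const_mul t)
  rw [dy, show fderiv ℝ (fun z => s * f z + t * h z) z = _ from this.fderiv]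
  simp [dy]

theorem _root_.Crest.Agent.R193.Tst.int_abs (hf : Tst Ω f) : Integrable fun z => |f z| :=
  (hf.cont.integrable_of_hasCompactSupport hf.2.1).abs

theorem _root_.Crest.Agent.R193.Tst.int_abs_mul (hχ : Tst Ω χ) (hf : Continuous f) : Integrable fun z => |χ z| * f z :=
  (hχ.cont.abs.mul hf).integrable_of_hasCompactSupport
    (hχ.2.1.comp_left (g := fun x : ℝ => |x|) abs_zero).mul_right

theorem exists_cut {K U : Set ℂ} (hK : IsCompact K) (hU : IsOpen U) (h : K ⊆ U) :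
    ∃ ρ : ℂ → ℝ, Tst U ρ ∧ (∀ᶠ z in 𝓝ˢ K, ρ z = 1) ∧ ∀ z, ρ z ∈ Icc (0 : ℝ) 1 := by
  obtain ⟨L, hL, h1, h2⟩ := exists_compact_between hK hU h
  obtain ⟨ρ, a, b, c⟩ := exists_contMDiffMap_one_nhds_of_subset_interior (n := (⊤ : ℕ∞))
    (modelWithCornersSelf ℝ ℂ) hK.isClosed h1
  have ht : tsupport ρ ⊆ L := closure_minimal (fun z hz => by_contra fun h => hz (b z h)) hL.isClosed
  exact ⟨ρ, ⟨ρ.contMDiff.contDiff, hL.of_isClosed_subset isClosed_closure ht, ht.trans h2⟩, a, c⟩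

/-- linear on test functions -/
def TLin (Ω : Set ℂ) (L : (ℂ → ℝ) → ℝ) : Prop := ∀ χ χ' s t, Tst Ω χ → Tst Ω χ' →
  L (fun z => s * χ z + t * χ' z) = s * L χ + t * L χ'

theorem riesz (hm : MeasurableSet Ω) (hΩ : volume Ω < ⊤) {L : (ℂ → ℝ) → ℝ} {C : ℝ} (hC : 0 ≤ C)
    (hlin : TLin Ω L) (hb : ∀ χ, Tst Ω χ → |L χ| ≤ C * ∫ z, |χ z|) :
    ∃ a : ℂ → ℝ, Measurable a ∧ (∀ z, |a z| ≤ C) ∧ ∀ χ, Tst Ω χ → L χ = ∫ z, χ z * a z := by
  set μ : Measure ℂ := volume.restrict Ω with hμ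
  haveI : IsFiniteMeasure μ := ⟨by simpa [hμ] using hΩ⟩
  let W : Submodule ℝ (ℂ → ℝ) :=
    { carrier := {f | MemLp f 2 μ}
      add_mem' := MemLp.add
      zero_mem' := MemLp.zero
      smul_mem' := fun c _ hf => MemLp.const_smul hf c }
  let D : Submodule ℝ W :=
    { carrier := {f | Tst Ω f.1}
      add_mem' := fun {a b} ha hb => by
        have := Tst.lin ha hb 1 1
        simp only [one_mul] at this
        exact this
      zero_mem' := tst_zero Ω
      smul_mem' := fun c a ha => by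
        have := Tst.lin ha ha c 0
        simp only [zero_mul, add_zero] at this
        exact this }
  let f₀ : W →ₗ.[ℝ] ℝ := ⟨D,
    { toFun := fun x => L x.1.1
      map_add' := fun a b => by
        have := hlin _ _ 1 1 a.2 b.2
        simp only [one_mul] at this
        exact this
      map_smul' := fun c a => by
        have := hlin _ _ c 0 a.2 a.2
        simp only [zero_mul, add_zero] at this
        exact this }⟩
  have hint : ∀ x : W, Integrable x.1 μ := fun x => MemLp.integrable one_le_two x.2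
  have hres : ∀ χ u : ℂ → ℝ, (∀ z, χ z = 0 → u z = 0) → Tst Ω χ → ∫ z, u z ∂μ = ∫ z, u z :=
    fun χ u hu hχ => setIntegral_eq_integral_of_forall_compl_eq_zero fun z hz => hu z (hχ.eq_zero hz)
  obtain ⟨g, hg1, hg2⟩ := exists_extension_of_le_sublinear f₀ (fun x => C * ∫ z, |x.1 z| ∂μ)
    (fun c hc x => by
      rw [mul_left_comm, ← integral_const_mul c]
      congr 2
      funext z
      rw [← abs_of_pos hc, ← abs_mul, abs_of_pos hc]; rfl)
    (fun x y => by
      rw [← mul_add, ← integral_add (hint x).abs (hint y).abs]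
      exact mul_le_mul_of_nonneg_left (integral_mono (hint (x + y)).abs
        ((hint x).abs.add (hint y).abs) fun z => abs_add_le _ _) hC)
    fun x => by
      rw [hres x.1.1 _ (fun z hz => by rw [hz, abs_zero]) x.2]
      exact (le_abs_self _).trans (hb _ x.2)
  have habs : ∀ x : W, |g x| ≤ C * ∫ z, |x.1 z| ∂μ := fun x => abs_le.2 ⟨by
    have := hg2 (-x)
    simp only [map_neg, Submodule.coe_neg, Pi.neg_apply, abs_neg] at this
    linarith, hg2 x⟩
  have hcg : ∀ x y : W, x.1 =ᵐ[μ] y.1 → g x = g y := fun x y hxy => by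
    have := habs (x - y)
    rw [integral_eq_zero_of_ae (hxy.mono fun z hz => by simp [hz]), mul_zero, map_sub] at this
    exact sub_eq_zero.1 (abs_nonpos_iff.1 this)
  let g' : Lp ℝ 2 μ →ₗ[ℝ] ℝ :=
    { toFun := fun F => g ⟨F, Lp.memLp F⟩
      map_add' := fun F F' => by rw [← map_add]; exact hcg _ _ (Lp.coeFn_add _ _)
      map_smul' := fun c F => by rw [← map_smul]; exact hcg _ _ (Lp.coeFn_smul _ _) }
  have hg' : ∀ F, |g' F| ≤ C * ∫ z, |F z| ∂μ := fun F => habs _
  obtain ⟨a, ha⟩ := (InnerProductSpace.toDual ℝ (Lp ℝ 2 μ)).surjective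
    (g'.mkContinuous (C * ‖indicatorConstLp (μ := μ) 2 MeasurableSet.univ (measure_ne_top _ _) (1 : ℝ)‖)
      fun F => (hg' F).trans (by
        rw [mul_assoc]
        refine mul_le_mul_of_nonneg_left ?_ hC
        rw [← norm_abs_eq_norm F]
        refine le_trans (le_of_eq ?_) (real_inner_le_norm _ _)
        rw [L2.inner_indicatorConstLp_one, Measure.restrict_univ]
        exact integral_congr_ae ((Lp.coeFn_abs F).mono fun z hz => hz.symm)))
  have ha' : ∀ F, g' F = inner ℝ a F := fun F => by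
    have := congrArg (fun T : Lp ℝ 2 μ →L[ℝ] ℝ => T F) ha
    simpa using this.symm
  have hia : Integrable a μ := (Lp.memLp a).integrable one_le_two
  have hs : ∀ s, MeasurableSet s → |∫ z in s, a z ∂μ| ≤ ∫ _ in s, C ∂μ := fun s hs => by
    have h1 := hg' (indicatorConstLp 2 hs (measure_ne_top _ _) (1 : ℝ))
    rw [ha', real_inner_comm, L2.inner_indicatorConstLp_one] at h1
    refine h1.trans_eq ?_
    have e : (fun z => |indicatorConstLp 2 hs (measure_ne_top μ _) (1 : ℝ) z|) =ᵐ[μ]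
        s.indicator fun _ => (1 : ℝ) := by
      filter_upwards [indicatorConstLp_coeFn (p := 2) (hs := hs) (hμs := measure_ne_top μ _)
        (c := (1 : ℝ))] with z hz
      rw [hz]; by_cases h : z ∈ s <;> simp [h]
    rw [integral_congr_ae e, integral_indicator hs, ← integral_const_mul]
    simp
  have h1 : ∀ᵐ z ∂μ, a z ≤ C := ae_le_of_forall_setIntegral_le hia (integrable_const C)
    fun s h _ => (le_abs_self _).trans (hs s h)
  have h2 : ∀ᵐ z ∂μ, -a z ≤ C := ae_le_of_forall_setIntegral_le hia.neg (integrable_const C)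
    fun s h _ => by
      simp only [Pi.neg_apply, integral_neg]
      exact (neg_le_abs _).trans (hs s h)
  have hm' := (Lp.aestronglyMeasurable a).aemeasurable
  refine ⟨fun z => max (-C) (min C (hm'.mk _ z)), measurable_const.max
    (measurable_const.min hm'.measurable_mk),
    fun z => abs_le.2 ⟨le_max_left _ _, max_le (by linarith) (min_le_left _ _)⟩, fun χ hχ => ?_⟩
  have hχ2 : MemLp χ 2 μ := (hχ.cont.memLp_of_hasCompactSupport hχ.2.1).restrict _
  have e1 : L χ = g' (hχ2.toLp χ) :=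
    (hg1 ⟨⟨χ, hχ2⟩, hχ⟩).symm.trans (hcg _ _ hχ2.coeFn_toLp.symm)
  rw [e1, ha', L2.inner_def, ← hres χ _ (fun z hz => by rw [hz, zero_mul]) hχ]
  refine integral_congr_ae ?_
  filter_upwards [hχ2.coeFn_toLp, h1, h2, hm'.ae_eq_mk] with z e a1 a2 a3
  rw [e, ← a3, min_eq_right a1, max_eq_right (by linarith)]
  simp

theorem loc_glob {L : (ℂ → ℝ) → ℝ} {c : ℝ} (hlin : TLin Ω L)
    (hloc : ∀ p ∈ Ω, ∃ U ∈ 𝓝 p, ∀ χ, Tst Ω χ → tsupport χ ⊆ U → |L χ| ≤ c * ∫ z, |χ z|)
    (hχ : Tst Ω χ) : |L χ| ≤ c * ∫ z, |χ z| := by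
  obtain ⟨U, -, h1, h2⟩ := hχ.2.1.isCompact.induction_on
    (p := fun s => ∃ U, IsOpen U ∧ s ⊆ U ∧ ∀ χ, Tst Ω χ → tsupport χ ⊆ U → |L χ| ≤ c * ∫ z, |χ z|)
    ⟨∅, isOpen_empty, Subset.rfl, fun χ h h0 => by
      have e : χ = fun z => 0 * χ z + 0 * χ z := funext fun z => by
        rw [image_eq_zero_of_notMem_tsupport fun h => h0 h]; simp
      rw [e, hlin _ _ _ _ h h]; simp⟩
    (fun s t hst ⟨U, a, b, c⟩ => ⟨U, a, hst.trans b, c⟩)
    (fun s t ⟨U, a, b, c⟩ ⟨U', a', b', c'⟩ => ⟨U ∪ U', a.union a', union_subset_union b b', fun χ h hs => by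
      obtain ⟨ρ, r1, r2, r3⟩ := exists_cut (h.2.1.isCompact.diff a') a fun z hz => (hs hz.1).resolve_right hz.2
      have t1 := h.mul_right r1.1
      have t2 := h.mul_right (contDiff_const.sub r1.1 : ContDiff ℝ (⊤ : ℕ∞) fun z => 1 - ρ z)
      have e1 := c _ t1 (tsupport_mul_subset_right.trans r1.2.2)
      have e2 := c' _ t2 fun z hz => by
        by_contra hz'
        refine notMem_tsupport_iff_eventuallyEq.2 ?_ hz
        filter_upwards [(eventually_nhdsSet_iff_forall.1 r2) z ⟨tsupport_mul_subset_left hz, hz'⟩]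
          with y hy
        simp [hy]
      have e3 := hlin _ _ 1 1 t1 t2
      have e4 : (fun z => 1 * (χ z * ρ z) + 1 * (χ z * (1 - ρ z))) = χ := funext fun z => by ring
      have e5 : (∫ z, |χ z * ρ z|) + ∫ z, |χ z * (1 - ρ z)| = ∫ z, |χ z| := by
        rw [← integral_add t1.int_abs t2.int_abs]
        congr 1
        funext z
        rw [abs_mul, abs_mul, abs_of_nonneg (r3 z).1, abs_of_nonneg (sub_nonneg.2 (r3 z).2)]; ring
      rw [e4] at e3
      rw [e3, ← e5, one_mul, one_mul, mul_add]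
      exact (abs_add_le _ _).trans (add_le_add e1 e2)⟩)
    fun p hp => by
      obtain ⟨U, a, b⟩ := hloc p (hχ.2.2 hp)
      exact ⟨interior U, mem_nhdsWithin_of_mem_nhds (interior_mem_nhds.2 a), interior U, isOpen_interior,
        Subset.rfl, fun χ h hs => b χ h (hs.trans interior_subset)⟩
  exact h2 χ hχ h1

end Crest.Agent.R193.EB
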