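import Crest.Agent.R193.E.Inv
import Crest.Agent.R193.E.Tst

/-!
# R193/E/Geo: the discs attached to the group elements in the chart
-/

set_option autoImplicit false
open Set Metric Filter Topology MeasureTheory

noncomputable section

namespace Crest.Agent.R193.EB

variable {G : Type} [Group G] {Z : Type} [MetricSpace Z] [CompactSpace Z] [MulAction G Z]
  {H : HA G Z} {φ : Z → ℂ} {V : Set Z}

theorem cpt_pre (hφ : QC φ V) {A : Set ℂ} (hA : IsCompact A) (h : A ⊆ φ '' V) :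
    IsCompact (V ∩ φ ⁻¹' A) := by
  have he : IsOpenEmbedding (V.restrict φ) := .of_continuous_injective_isOpenMap
    hφ.cont.restrict hφ.inj.injective fun O hO => by
      have := hφ.openMap (Subtype.val '' O) (Subtype.coe_image_subset _ _)
        (hφ.isOpen.isOpenMap_subtype_val O hO)
      rwa [image_image] at this
  have := ((he.isInducing.isCompact_preimage_iff (fun _ hz =>
    let ⟨y, a, b⟩ := h hz; ⟨⟨y, a⟩, b⟩)).2 hA).image
    continuous_subtype_val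
  rwa [show V.restrict φ ⁻¹' A = Subtype.val ⁻¹' (φ ⁻¹' A) from rfl, Subtype.image_preimage_coe] at this

theorem ext_of_mem (f : ℂ → ℝ) {y : Z} (hy : y ∈ V) : ext φ V f y = f (φ y) := indicator_of_mem hy _

theorem ext_of_notMem (f : ℂ → ℝ) {y : Z} (hy : y ∉ V) : ext φ V f y = 0 := indicator_of_notMem hy _

theorem ext_eq_zero {f : ℂ → ℝ} {y : Z} (hy : y ∉ V ∩ φ ⁻¹' tsupport f) : ext φ V f y = 0 := by
  by_cases h : y ∈ V
  · rw [ext_of_mem f h]; exact image_eq_zero_of_notMem_tsupport fun h' => hy ⟨h, h'⟩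
  · exact ext_of_notMem f h

theorem ext_lin (f h : ℂ → ℝ) (s t : ℝ) :
    ext φ V (fun z => s * f z + t * h z) = fun y => s * ext φ V f y + t * ext φ V h y := by
  funext y
  by_cases hy : y ∈ V
  · simp only [ext_of_mem _ hy]
  · simp [ext_of_notMem _ hy]

theorem ext_cont (hφ : QC φ V) {f : ℂ → ℝ} (hf : Tst (φ '' V) f) : Continuous (ext φ V f) := by
  have h1 : Function.support (ext φ V f) ⊆ V ∩ φ ⁻¹' tsupport f :=
    fun y hy => by_contra fun h => hy (ext_eq_zero h)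
  exact ContinuousOn.continuous_of_tsupport_subset
    ((hf.cont.comp_continuousOn hφ.cont).congr fun y hy => ext_of_mem f hy) hφ.isOpen
    ((closure_minimal h1 (cpt_pre hφ hf.2.1.isCompact hf.2.2).isClosed).trans inter_subset_left)

theorem ext_bdd {f : ℂ → ℝ} (hf : Bdd f) : Bdd (ext φ V f) := by
  obtain ⟨M, hM⟩ := hf
  refine ⟨M, fun y => ?_⟩
  by_cases hy : y ∈ V
  · rw [ext_of_mem _ hy]; exact hM _
  · rw [ext_of_notMem _ hy, abs_zero]; exact (abs_nonneg _).trans (hM 0)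

variable (H) in
/-- eventually in the level, for centres in `K` -/
def Ev (K : Set Z) (P : G → Prop) : Prop := ∀ᶠ t in atTop, ∀ g, H.len g = t → H.ctr g ∈ K → P g

variable (H φ V) in
/-- the planar scale of the group elements -/
structure Geo (lam : G → ℝ) : Prop where
  pos : ∀ K, IsCompact K → K ⊆ V → Ev H K fun g => 0 < lam g
  small : ∀ K, IsCompact K → K ⊆ V → ∀ ε : ℝ, 0 < ε → Ev H K fun g => lam g ≤ ε
  big : ∀ M : ℝ, ∃ A : ℝ, 0 < A ∧ ∀ K, IsCompact K → K ⊆ V → Ev H K fun g =>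
    ∀ y, dist y (H.ctr g) ≤ M * H.θ ^ H.len g → y ∈ V ∧ ‖φ y - φ (H.ctr g)‖ ≤ A * lam g
  inv : ∀ A : ℝ, ∃ M : ℝ, ∀ K, IsCompact K → K ⊆ V → Ev H K fun g =>
    ∀ ζ, ‖ζ - φ (H.ctr g)‖ ≤ A * lam g → ∃ y ∈ V, φ y = ζ ∧ dist y (H.ctr g) ≤ M * H.θ ^ H.len g

theorem ev_near {K : Set Z} {δ : ℝ} (hδ : 0 < δ) (M : ℝ) :
    Ev H K fun g => ∀ y, dist y (H.ctr g) ≤ M * H.θ ^ H.len g → y ∈ cthickening δ K :=
  (ev_small H M hδ).mono fun _ ht _ hg hK y hy =>
    mem_cthickening_of_dist_le y _ δ K hK (hy.trans (hg ▸ ht.le))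

theorem exists_geo (H : HA G Z) (hφ : QC φ V) : ∃ lam, Geo H φ V lam := by
  obtain ⟨a, ha, ha1, hd⟩ := sph_dist_all H.sph
  have hθ : ∀ g, 0 < H.θ ^ H.len g := fun g => pow_pos H.θ_pos _
  choose y hy using fun g => hd (H.ctr g) (a * H.θ ^ H.len g) (mul_pos ha (hθ g)).le
    (mul_le_of_le_one_right ha.le (pow_le_one₀ H.θ_pos.le H.θ_lt.le))
  have hV : ∀ K, IsCompact K → K ⊆ V → ∀ M : ℝ,
      Ev H K fun g => ∀ y, dist y (H.ctr g) ≤ M * H.θ ^ H.len g → y ∈ V := fun K hK hKV M => by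
    obtain ⟨δ, hδ, h⟩ := hK.exists_cthickening_subset_open hφ.isOpen hKV
    exact (ev_near hδ M).mono fun t ht g a b y c => h (ht g a b y c)
  have hy' : ∀ g, dist (y g) (H.ctr g) ≤ a * H.θ ^ H.len g := fun g => by rw [dist_comm, hy]
  have hs : ∀ K, IsCompact K → K ⊆ V → ∀ ε : ℝ, 0 < ε →
      Ev H K fun g => ‖φ (H.ctr g) - φ (y g)‖ ≤ ε := fun K hK hKV ε hε => by
    obtain ⟨δ, hδ, h⟩ := hK.exists_cthickening_subset_open hφ.isOpen hKV
    obtain ⟨δ', hδ', hu⟩ := Metric.uniformContinuousOn_iff.1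
      (isClosed_cthickening.isCompact.uniformContinuousOn_of_continuous (hφ.cont.mono h)) ε hε
    filter_upwards [ev_near (H := H) (K := K) hδ a, ev_small H a hδ'] with t h1 h2 g hg hK'
    rw [← dist_eq_norm]
    exact (hu _ (self_subset_cthickening _ hK') _ (h1 g hg hK' _ (hy' g)) (by rwa [hy, hg])).le
  refine ⟨fun g => ‖φ (H.ctr g) - φ (y g)‖, fun K hK hKV => ?_, hs, fun M => ?_, fun A => ?_⟩
  · refine (hV K hK hKV a).mono fun t ht g hg hK' => norm_pos_iff.2 (sub_ne_zero.2 fun e => ?_)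
    have := hy g
    rw [← hφ.inj (hKV hK') (ht g hg hK' _ (hy' g)) e, dist_self] at this
    exact (mul_pos ha (hθ g)).ne this
  · obtain ⟨A, hA, hb⟩ := hφ.big ((|M| + 1) / a) (by positivity)
    refine ⟨A, hA, fun K hK hKV => ?_⟩
    filter_upwards [hV K hK hKV a, hV K hK hKV M] with t h1 h2 g hg hK' z hz
    refine ⟨h2 g hg hK' z hz, ?_⟩
    rw [norm_sub_rev]
    refine hb _ (hKV hK') _ (h2 g hg hK' z hz) _ (h1 g hg hK' _ (hy' g)) ?_
    rw [hy, ← mul_assoc, div_mul_cancel₀ _ ha.ne', dist_comm]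
    exact hz.trans (mul_le_mul_of_nonneg_right (by linarith [le_abs_self M]) (hθ g).le)
  · obtain ⟨τ, hτ, hb⟩ := hφ.small (|A| + 1)⁻¹ (by positivity)
    refine ⟨a / τ, fun K hK hKV => ?_⟩
    obtain ⟨δ, hδ, h⟩ := (hK.image_of_continuousOn (hφ.cont.mono hKV)).exists_cthickening_subset_open
      (hφ.openMap V Subset.rfl hφ.isOpen) (image_mono hKV)
    filter_upwards [hV K hK hKV a, hs K hK hKV (δ / (|A| + 1)) (by positivity)] with t h1 h2 g hg hK' ζ hζ
    have h3 := (le_div_iff₀ (by positivity)).1 (h2 g hg hK')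
    have h0 := norm_nonneg (φ (H.ctr g) - φ (y g))
    have h4 := mul_le_mul_of_nonneg_right (le_abs_self A) h0
    obtain ⟨z, hz, rfl⟩ := h (mem_cthickening_of_dist_le ζ _ δ _ (mem_image_of_mem φ hK')
      (by rw [dist_eq_norm]; linarith))
    refine ⟨z, hz, rfl, by_contra fun hc => ?_⟩
    have h5 := hb _ (hKV hK') _ (h1 g hg hK' _ (hy' g)) _ hz (by
      rw [hy, dist_comm, ← div_le_iff₀' hτ, mul_div_right_comm]; exact (not_le.1 hc).le)
    rw [← div_eq_inv_mul, le_div_iff₀ (by positivity), norm_sub_rev _ (φ z)] at h5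
    have h6 : ‖φ (H.ctr g) - φ (y g)‖ = 0 := by linarith
    have := hy g
    rw [← hφ.inj (hKV hK') (h1 g hg hK' _ (hy' g)) (sub_eq_zero.1 (norm_eq_zero.1 h6)), dist_self] at this
    exact (mul_pos ha (hθ g)).ne this

open Classical in
/-- bounded overlap of the discs -/
theorem Geo.mult {lam : G → ℝ} (hG : Geo H φ V lam) (hφ : QC φ V) (A : ℝ) : ∃ N : ℕ, ∀ K, IsCompact K →
    K ⊆ V → ∀ᶠ t in atTop, ∀ T : Finset G, (∀ g ∈ T, H.len g = t ∧ H.ctr g ∈ K) → ∀ z,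
      (T.filter fun g => z ∈ ball (φ (H.ctr g)) (A * lam g)).card ≤ N := by
  obtain ⟨M, hM⟩ := hG.inv A
  obtain ⟨N, hN⟩ := H.level_mult M
  refine ⟨N, fun K hK hKV => (hM K hK hKV).mono fun t ht T hT z => ?_⟩
  have k : ∀ g ∈ T.filter fun g => z ∈ ball (φ (H.ctr g)) (A * lam g),
      ∃ y ∈ V, φ y = z ∧ dist y (H.ctr g) ≤ M * H.θ ^ H.len g := fun g hg => by
    obtain ⟨h1, h2⟩ := Finset.mem_filter.1 hg
    exact ht g (hT g h1).1 (hT g h1).2 z (mem_ball_iff_norm.1 h2).le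
  rcases Finset.eq_empty_or_nonempty (T.filter fun g => z ∈ ball (φ (H.ctr g)) (A * lam g)) with h | ⟨g₀, h⟩
  · rw [h]; simp
  obtain ⟨y₀, a₀, b₀, -⟩ := k g₀ h
  refine hN t y₀ _ fun g hg => ?_
  obtain ⟨y, a, b, c⟩ := k g hg
  have e := (hT g (Finset.mem_filter.1 hg).1).1
  exact ⟨e, by rwa [dist_comm, ← hφ.inj a a₀ (b.trans b₀.symm), ← e]⟩

end Crest.Agent.R193.EB
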