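import Crest.Agent.R193.E.Abs

/-!
# R193/E/Inv: invariance of the form; localisation of optimality
-/

set_option autoImplicit false
open Set Metric Filter Topology MeasureTheory

noncomputable section

namespace Crest.Agent.R193.EB

variable {G : Type} [Group G] {Z : Type} [MetricSpace Z] [CompactSpace Z] [MulAction G Z]
  {H : HA G Z} {S : Finset G}

theorem ev_of_atTop {P : ℕ → Prop} (h : ∀ᶠ t in atTop, P t) {ε : ℝ} (hε : 0 < ε) :
    ∀ᶠ k : ℕ in 𝒰, ∀ t : ℕ, ε * ((k : ℝ) + 1) ≤ t → P t := by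
  obtain ⟨N, hN⟩ := eventually_atTop.1 h
  filter_upwards [ev_le_mul hε N] with k hk t ht
  exact hN t (by exact_mod_cast hk.trans ht)

theorem ev_small (H : HA G Z) (K : ℝ) {δ : ℝ} (hδ : 0 < δ) : ∀ᶠ t in atTop, K * H.θ ^ t < δ := by
  have := (tendsto_pow_atTop_nhds_zero_of_lt_one H.θ_pos.le H.θ_lt).const_mul K
  rw [mul_zero] at this
  exact this.eventually_lt_const hδ

/-- right translation of edges -/
def eSh (S : Finset G) (h : G) : G × S ≃ G × S := (Equiv.mulRight h⁻¹).prodCongr (Equiv.refl _)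

theorem fl1_sh {c : ℕ → G × S → ℝ} (hc : Fl1 (eht H S) c) (h : G) :
    Fl1 (eht H S) (fun k p => c k (eSh S h p)) ∧
      LI (eht H S) (fun k p => c k (eSh S h p)) = LI (eht H S) c :=
  hc.shift (eSh S h) (b := H.len h)
    (fun p => (H.len_mul p.1 h⁻¹).trans_eq (by rw [H.len_inv]; rfl))
    fun p => by
      have := H.len_mul (p.1 * h⁻¹) h
      rwa [inv_mul_cancel_right] at this

theorem dl_sh (F : G → ℝ) (h : G) (p : G × S) :
    dl S (fun g => F (g * h⁻¹)) p = dl S F (eSh S h p) := by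
  simp [dl, eSh, mul_assoc]

theorem Adm.sh {w : Z → ℝ} {F : ℕ → G → ℝ} (hF : Adm H S w F) (h : G) :
    Adm H S (fun y => w (h • y)) fun k g => F k (g * h⁻¹) := by
  haveI := H.ccs
  obtain ⟨M, hM⟩ := hF.bdd
  refine ⟨hF.cont.comp (continuous_const_smul h), ⟨M, hM.mono fun k hk g => hk _⟩, ?_, fun ε hε => ?_⟩
  · simpa only [dl_sh] using (fl1_sh hF.fl h).1
  · obtain ⟨K, -, hK⟩ := H.ctr_mul h
    obtain ⟨δ, hδ, hu⟩ := Metric.uniformContinuous_iff.1
      (CompactSpace.uniformContinuous_of_continuous hF.cont) _ (half_pos hε)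
    filter_upwards [hF.tend _ (half_pos hε), ev_of_atTop (ev_small H K hδ) hε,
      ev_le_mul (half_pos hε) (H.len h)] with k a b c g hg
    have h1 := H.len_mul (g * h⁻¹) h
    rw [inv_mul_cancel_right] at h1
    have h2 : (H.len g : ℝ) ≤ H.len (g * h⁻¹) + H.len h := by exact_mod_cast h1
    have h3 := a (g * h⁻¹) (by linarith)
    have h4 := hu ((hK g).trans_lt (b _ hg))
    rw [Real.dist_eq] at h4
    linarith [abs_sub_le (F k (g * h⁻¹)) (w (H.ctr (g * h⁻¹))) (w (h • H.ctr g))]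

theorem En_sh {F F' : ℕ → G → ℝ} (hF : Fl2 H S F) (hF' : Fl2 H S F') (h : G) :
    En H S (fun _ => 1) (fun k g => F k (g * h⁻¹)) (fun k g => F' k (g * h⁻¹)) =
      En H S (fun _ => 1) F F' := by
  simpa only [En, dl_sh] using (fl1_sh (hF.en hF' bdd_one) h).2

theorem Opt.sh {w : Z → ℝ} {F : ℕ → G → ℝ} (hF : Opt H S w F) (h : G) :
    Opt H S (fun y => w (h • y)) fun k g => F k (g * h⁻¹) := by
  refine ⟨hF.1.sh h, fun F' h' => ?_⟩
  have h1 := h'.sh h⁻¹
  have h2 := En_sh hF.1.fl h1.fl h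
  rw [hF.2 _ h1] at h2
  simpa using h2

theorem DD.sh {w : Z → ℝ} (hw : DD H S w) (h : G) : DD H S fun y => w (h • y) :=
  let ⟨_, a⟩ := hw; ⟨_, a.sh h⟩

theorem BB_sh {w w' : Z → ℝ} (hw : DD H S w) (hw' : DD H S w') (h : G) :
    BB H S (fun _ => 1) (fun y => w (h • y)) (fun y => w' (h • y)) = BB H S (fun _ => 1) w w' := by
  rw [(hw.opt.sh h).BB_eq (hw'.opt.sh h) bdd_one, En_sh hw.opt.1.fl hw'.opt.1.fl]
  rfl

theorem LI_mul_eq_zero {I : Type} {ht : I → ℕ} {a b : ℕ → I → ℝ} (ha : Fl1 ht fun k p => a k p ^ 2)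
    (hb : Fl1 ht fun k p => b k p ^ 2) (h0 : LI ht (fun k p => b k p ^ 2) ≤ 0) :
    LI ht (fun k p => a k p * b k p) = 0 := by
  have hab : Fl1 ht fun k p => a k p * b k p := by
    simpa using fl1_mul ha hb (m := fun _ => 1) ⟨1, by simp⟩
  refine eq_zero_of_abs_le (A := LI ht fun k p => a k p ^ 2) fun s hs => ?_
  have key : ∀ c x y : ℝ, c ^ 2 = 1 → c * (x * y) ≤ s⁻¹ / 2 * x ^ 2 + s / 2 * y ^ 2 := fun c x y hc => by
    have e : s⁻¹ / 2 * x ^ 2 + s / 2 * y ^ 2 - c * (x * y) =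
        s⁻¹ / 2 * ((x - c * s * y) ^ 2 + (1 - c ^ 2) * (s * y) ^ 2) := by field_simp; ring
    rw [hc, sub_self, zero_mul, add_zero] at e
    have : 0 ≤ s⁻¹ / 2 * (x - c * s * y) ^ 2 := by positivity
    linarith
  have h1 := LI_le_lin hab ha hb (s⁻¹ / 2) (s / 2) fun k p => by simpa using key 1 _ _ (by simp)
  have h2 := LI_le_lin (hab.lin hab (-1) 0) ha hb (s⁻¹ / 2) (s / 2) fun k p => by
    simpa using key (-1) _ _ (by simp)
  rw [LI_lin hab hab] at h2
  have h3 := mul_nonpos_of_nonneg_of_nonpos (half_pos hs).le h0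
  exact abs_le.2 ⟨by linarith, by linarith⟩

variable (H S) in
/-- bounded functions with bounded level energies -/
def Wt (η : Z → ℝ) : Prop :=
  Bdd η ∧ ∃ M : ℝ, ∀ t, ∑ p ∈ elv H S t, dl S (fun g => η (H.ctr g)) p ^ 2 ≤ M

theorem Wt.const (c : ℝ) : Wt H S fun _ => c := ⟨⟨|c|, fun _ => le_rfl⟩, 0, fun t => by simp [dl]⟩

theorem Wt.lin {η η' : Z → ℝ} (h : Wt H S η) (h' : Wt H S η') (s t : ℝ) :
    Wt H S fun y => s * η y + t * η' y := by
  obtain ⟨M, hM⟩ := h.2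
  obtain ⟨M', hM'⟩ := h'.2
  refine ⟨h.1.lin h'.1 s t, 2 * s ^ 2 * M + 2 * t ^ 2 * M', fun n => le_trans ?_
    (add_le_add (mul_le_mul_of_nonneg_left (hM n) (by positivity))
      (mul_le_mul_of_nonneg_left (hM' n) (by positivity)))⟩
  rw [Finset.mul_sum, Finset.mul_sum, ← Finset.sum_add_distrib]
  refine Finset.sum_le_sum fun p _ => ?_
  rw [dl_lin (fun g => η (H.ctr g)) fun g => η' (H.ctr g)]
  nlinarith [sq_nonneg (s * dl S (fun g => η (H.ctr g)) p - t * dl S (fun g => η' (H.ctr g)) p)]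

theorem Wt.adm {η : Z → ℝ} (h : Wt H S η) (hc : Continuous η) :
    Adm H S η fun _ g => η (H.ctr g) := by
  obtain ⟨B, hB⟩ := h.1
  obtain ⟨M, hM⟩ := h.2
  have hM0 : 0 ≤ M := (Finset.sum_nonneg fun _ _ => sq_nonneg _).trans (hM 0)
  exact ⟨hc, ⟨B, Eventually.of_forall fun _ g => hB _⟩,
    (LI_level (mem_elv H S) (fun _ _ => sq_nonneg _) hM0 (Eventually.of_forall fun _ => hM)
      fun ε hε => Eventually.of_forall fun _ t _ => (hM t).trans (by linarith)).1,
    fun ε hε => Eventually.of_forall fun _ g _ => by simpa using hε.le⟩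

/-- optimal sequences are locally optimal -/
theorem Opt.en_cut {w η : Z → ℝ} {F D : ℕ → G → ℝ} (hF : Opt H S w F) (hD : Adm H S (fun _ => 0) D)
    (hη : Wt H S η) : En H S η F D = 0 := by
  obtain ⟨B, hB⟩ := hη.1
  obtain ⟨M, hM⟩ := hη.2
  obtain ⟨A, hA⟩ := hD.bdd
  have hM0 : 0 ≤ M := (Finset.sum_nonneg fun _ _ => sq_nonneg _).trans (hM 0)
  set r : ℕ → G × S → ℝ := fun k p => dl S (fun g => η (H.ctr g)) p * D k (p.2 * p.1) with hr
  have hlev : ∀ k t (a : ℝ), (∀ p ∈ elv H S t, |D k (p.2 * p.1)| ≤ a) →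
      ∑ p ∈ elv H S t, r k p ^ 2 ≤ a ^ 2 * M := fun k t a ha => by
    refine le_trans ?_ (mul_le_mul_of_nonneg_left (hM t) (sq_nonneg a))
    rw [Finset.mul_sum]
    refine Finset.sum_le_sum fun p hp => ?_
    rw [hr, mul_pow, mul_comm]
    exact mul_le_mul_of_nonneg_right (sq_le_sq.2 ((ha p hp).trans (le_abs_self a))) (sq_nonneg _)
  have hr0 := LI_level (mem_elv H S) (c := fun k p => r k p ^ 2) (fun _ _ => sq_nonneg _)
    (M := A ^ 2 * M) le_rfl (hA.mono fun k hk t => hlev k t A fun p _ => hk _) fun ε hε => by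
      set δ := min (ε / 2) (min 1 (ε / (M + 1))) with hδ
      have hδ0 : 0 < δ := by positivity
      have h1 : δ ≤ ε / 2 := min_le_left _ _
      have h2 : δ ≤ 1 := (min_le_right _ _).trans (min_le_left _ _)
      have h3 : δ * (M + 1) ≤ ε :=
        (le_div_iff₀ (by positivity)).1 ((min_le_right _ _).trans (min_le_right _ _))
      filter_upwards [hD.tend δ hδ0, ev_le_mul (half_pos hε) (S.sup H.len : ℕ)] with k a b t ht
      refine (hlev k t δ fun p hp => ?_).trans (by nlinarith [mul_nonneg hδ0.le hM0])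
      have e1 := H.len_mul (p.2 : G)⁻¹ (p.2 * p.1)
      rw [inv_mul_cancel_left, H.len_inv, show H.len p.1 = t from (mem_elv H S t p).1 hp] at e1
      have e2 : (t : ℝ) ≤ (S.sup H.len : ℕ) + H.len (p.2 * p.1) := by
        exact_mod_cast e1.trans (Nat.add_le_add_right (Finset.le_sup p.2.2) _)
      have e3 : δ * ((k : ℝ) + 1) ≤ ε / 2 * ((k : ℝ) + 1) := mul_le_mul_of_nonneg_right h1 (by positivity)
      simpa using a (p.2 * p.1) (by linarith)
  have e : ∀ k p, dl S (fun g => η (H.ctr g) * D k g) p = 1 * (η (H.ctr p.1) * dl S (D k) p) + 1 * r k p :=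
    fun k p => by simp only [dl, hr]; ring
  have hB0 : 0 ≤ B := (abs_nonneg _).trans (hB (H.ctr 1))
  have h1 : Fl1 (eht H S) fun k p => (η (H.ctr p.1) * dl S (D k) p) ^ 2 :=
    hD.fl.of_le (sq_nonneg B) (Eventually.of_forall fun k p => by
      rw [mul_pow, abs_mul, abs_pow, sq_abs]
      exact mul_le_mul_of_nonneg_right (sq_le_sq.2 ((hB _).trans (le_abs_self B))) (abs_nonneg _))
  have hE : Adm H S (fun _ => 0) fun k g => η (H.ctr g) * D k g := by
    refine ⟨continuous_const, ⟨B * A, hA.mono fun k hk g => ?_⟩, ?_, fun ε hε => ?_⟩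
    · rw [abs_mul]; exact mul_le_mul (hB _) (hk g) (abs_nonneg _) hB0
    · simpa only [e] using fl1_sq_lin h1 hr0.1 1 1
    · set δ := min ε (ε / (B + 1)) with hδ
      have h3 : δ * (B + 1) ≤ ε := (le_div_iff₀ (by positivity)).1 (min_le_right _ _)
      have hδ0 : 0 < δ := by positivity
      filter_upwards [hD.tend δ hδ0] with k a g hg
      have := a g ((mul_le_mul_of_nonneg_right (min_le_left _ _) (by positivity)).trans hg)
      rw [sub_zero] at this ⊢
      rw [abs_mul]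
      nlinarith [mul_le_mul (hB (H.ctr g)) this (abs_nonneg _) hB0]
  have h2 := hF.2 _ hE
  have h3 := LI_mul_eq_zero hF.1.fl hr0.1 (by simpa using hr0.2)
  have h4 := LI_lin (Fl2.en hF.1.fl hD.fl hη.1)
    (by simpa using fl1_mul hF.1.fl hr0.1 (m := fun _ => 1) ⟨1, by simp⟩ :
      Fl1 (eht H S) fun k p => dl S (F k) p * r k p) 1 1
  rw [h3, one_mul, mul_zero, add_zero] at h4
  rw [En, ← h4, ← h2, En]
  congr 1
  funext k p
  rw [e]; ring

theorem BB_le_En {w η : Z → ℝ} {F : ℕ → G → ℝ} (hF : Adm H S w F) (hη : Wt H S η)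
    (h0 : ∀ y, 0 ≤ η y) : BB H S η w w ≤ En H S η F F := by
  have h := DD.opt ⟨F, hF⟩
  have hD := hF.sub h.1
  have h1 := En_nonneg hD.fl hη.1 h0
  have h2 := h.en_cut hD hη
  have h3 := h2
  rw [En_symm, En_lin hF.fl h.1.fl h.1.fl hη.1] at h2
  rw [En_lin hF.fl h.1.fl hD.fl hη.1, h3, En_symm, En_lin hF.fl h.1.fl hF.fl hη.1,
    En_symm _ (opt H S w) F] at h1
  rw [BB]
  linarith

end Crest.Agent.R193.EB
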