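import Crest.Agent.R193.E.UB

/-!
# R193/E/Itp: smooth interpolation of values attached to discs
-/

set_option autoImplicit false
open Set Metric Filter Topology MeasureTheory

noncomputable section

namespace Crest.Agent.R193.EB

theorem exists_bump : ∃ L : ℝ, ∀ (c : ℂ) (r : ℝ), ∃ β : ℂ → ℝ, 0 < r → Tst (ball c (2 * r)) β ∧
    (∀ z, β z ∈ Icc (0 : ℝ) 1) ∧ (∀ z ∈ closedBall c r, β z = 1) ∧ ∀ z, ‖fderiv ℝ β z‖ ≤ L / r := by
  obtain ⟨b, h1, h2, h3⟩ := exists_cut (isCompact_closedBall (0 : ℂ) 1) isOpen_ball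
    (closedBall_subset_ball one_lt_two)
  obtain ⟨L, hL⟩ := h1.cont_fderiv.bounded_above_of_compact_support (h1.2.1.fderiv (𝕜 := ℝ))
  refine ⟨L, fun c r => ⟨fun z => b (r⁻¹ • (z - c)), fun hr => ?_⟩⟩
  have hn : ∀ z : ℂ, ‖r⁻¹ • (z - c)‖ = ‖z - c‖ / r := fun z => by
    rw [norm_smul, norm_inv, Real.norm_of_nonneg hr.le, div_eq_inv_mul]
  have hc : ContDiff ℝ (⊤ : ℕ∞) fun z : ℂ => r⁻¹ • (z - c) := (contDiff_id.sub contDiff_const).const_smul _
  have ht : tsupport (fun z => b (r⁻¹ • (z - c))) ⊆ ball c (2 * r) := fun z hz => by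
    have := h1.2.2 (closure_minimal (t := (fun z : ℂ => r⁻¹ • (z - c)) ⁻¹' tsupport b)
      (fun _ h => subset_closure h) (isClosed_closure.preimage hc.continuous) hz)
    rwa [mem_ball_zero_iff, hn, div_lt_iff₀ hr, ← mem_ball_iff_norm] at this
  refine ⟨⟨h1.1.comp hc, (isCompact_closedBall c (2 * r)).of_isClosed_subset isClosed_closure
    (ht.trans ball_subset_closedBall), ht⟩, fun z => h3 _, fun z hz => h2.self_of_nhdsSet _ ?_, fun z => ?_⟩
  · rwa [mem_closedBall_zero_iff, hn, div_le_one hr, ← mem_closedBall_iff_norm]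
  · have := (h1.diff (r⁻¹ • (z - c))).hasFDerivAt.comp z
      (((hasFDerivAt_id z).sub_const c).const_smul r⁻¹)
    rw [show fderiv ℝ (fun z => b (r⁻¹ • (z - c))) z = _ from this.fderiv]
    refine (ContinuousLinearMap.opNorm_comp_le _ _).trans ?_
    rw [norm_smul, norm_inv, Real.norm_of_nonneg hr.le, ContinuousLinearMap.norm_id, mul_one,
      div_eq_mul_inv]
    exact mul_le_mul_of_nonneg_right (hL _) (by positivity)

open Classical in
theorem interp : ∃ C : ℝ, 0 ≤ C ∧ ∀ {ι : Type} (T : Finset ι) (c : ι → ℂ) (r v e : ι → ℝ) (N : ℕ),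
    (∀ i ∈ T, 0 < r i) → (∀ z, (T.filter fun i => z ∈ ball (c i) (2 * r i)).card ≤ N) →
    (∀ i ∈ T, v i ≠ 0 → ∀ z ∈ ball (c i) (2 * r i), ∃ j ∈ T, z ∈ closedBall (c j) (r j)) →
    (∀ i ∈ T, ∀ j ∈ T, ∀ z ∈ ball (c i) (2 * r i), z ∈ ball (c j) (2 * r j) → (v j - v i) ^ 2 ≤ e i) →
    ∃ f : ℂ → ℝ, ContDiff ℝ (⊤ : ℕ∞) f ∧ HasCompactSupport f ∧
      (∀ z ∈ tsupport f, ∃ i ∈ T, v i ≠ 0 ∧ z ∈ ball (c i) (2 * r i)) ∧
      (∀ (z : ℂ) (a ε : ℝ), (∃ j ∈ T, z ∈ closedBall (c j) (r j)) →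
        (∀ i ∈ T, z ∈ ball (c i) (2 * r i) → |v i - a| ≤ ε) → |f z - a| ≤ ε) ∧
      dir f ≤ C * N * ∑ i ∈ T, e i := by
  obtain ⟨L, hL⟩ := exists_bump
  refine ⟨32 * L ^ 2, by positivity, fun {ι} T c r v e N hr hN hcov he => ?_⟩
  choose β hβ using fun i => hL (c i) (r i)
  have b1 := fun i hi => (hβ i (hr i hi)).1
  have b2 := fun i hi => (hβ i (hr i hi)).2.1
  set S : ℂ → ℝ := fun z => ∑ i ∈ T, β i z with hS
  set P : ℂ → ℝ := fun z => ∑ i ∈ T, v i * β i z with hP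
  have hSc : ContDiff ℝ (⊤ : ℕ∞) S := ContDiff.sum fun i hi => (b1 i hi).1
  have hPc : ContDiff ℝ (⊤ : ℕ∞) P := ContDiff.sum fun i hi => contDiff_const.mul (b1 i hi).1
  have hS1 : ∀ z, (∃ j ∈ T, z ∈ closedBall (c j) (r j)) → 1 ≤ S z := fun z ⟨j, hj, hz⟩ =>
    ((hβ j (hr j hj)).2.2.1 z hz).symm.trans_le
      (Finset.single_le_sum (f := fun i => β i z) (fun i hi => (b2 i hi z).1) hj)
  set f : ℂ → ℝ := fun z => P z / S z with hf
  have hK : IsCompact (⋃ i ∈ T.filter fun i => v i ≠ 0, tsupport (β i)) :=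
    Finset.isCompact_biUnion _ fun i hi => (b1 i (Finset.mem_filter.1 hi).1).2.1.isCompact
  have hsup : tsupport f ⊆ ⋃ i ∈ T.filter fun i => v i ≠ 0, tsupport (β i) :=
    closure_minimal (fun z hz => by
      obtain ⟨i, hi, h⟩ := Finset.exists_ne_zero_of_sum_ne_zero (div_ne_zero_iff.1 hz).1
      exact mem_biUnion (Finset.mem_filter.2 ⟨hi, left_ne_zero_of_mul h⟩)
        (subset_closure (right_ne_zero_of_mul h))) hK.isClosed
  have hs : ∀ z ∈ tsupport f, ∃ i ∈ T, v i ≠ 0 ∧ z ∈ ball (c i) (2 * r i) := fun z hz => by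
    obtain ⟨i, hi, h⟩ := mem_iUnion₂.1 (hsup hz)
    obtain ⟨h1, h2⟩ := Finset.mem_filter.1 hi
    exact ⟨i, h1, h2, (b1 i h1).2.2 h⟩
  have hc : ∀ z ∈ tsupport f, ∃ j ∈ T, z ∈ closedBall (c j) (r j) := fun z hz =>
    let ⟨i, a, b, d⟩ := hs z hz; hcov i a b z d
  have hfc : ContDiff ℝ (⊤ : ℕ∞) f := contDiff_iff_contDiffAt.2 fun z => by
    by_cases hz : z ∈ tsupport f
    · exact hPc.contDiffAt.div hSc.contDiffAt (one_pos.trans_le (hS1 z (hc z hz))).ne'
    · exact contDiffAt_const.congr_of_eventuallyEq (notMem_tsupport_iff_eventuallyEq.1 hz)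
  have hconv : ∀ (z : ℂ) (a ε : ℝ), (∃ j ∈ T, z ∈ closedBall (c j) (r j)) →
      (∀ i ∈ T, z ∈ ball (c i) (2 * r i) → |v i - a| ≤ ε) → |f z - a| ≤ ε := fun z a ε hz h => by
    have h0 := one_pos.trans_le (hS1 z hz)
    have e1 : f z - a = (∑ i ∈ T, (v i - a) * β i z) / S z := by
      simp only [sub_mul, Finset.sum_sub_distrib, ← Finset.mul_sum]
      rw [sub_div, mul_div_cancel_right₀ _ h0.ne']
    rw [e1, abs_div, abs_of_pos h0, div_le_iff₀ h0, hS, Finset.mul_sum]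
    refine (Finset.abs_sum_le_sum_abs _ _).trans (Finset.sum_le_sum fun i hi => ?_)
    by_cases hi' : z ∈ ball (c i) (2 * r i)
    · rw [abs_mul, abs_of_nonneg (b2 i hi z).1]
      exact mul_le_mul_of_nonneg_right (h i hi hi') (b2 i hi z).1
    · simp [(b1 i hi).eq_zero hi']
  have hT : Tst univ f := ⟨hfc, hK.of_isClosed_subset isClosed_closure hsup, subset_univ _⟩
  refine ⟨f, hfc, hT.2.1, hs, hconv, ?_⟩
  have he0 : ∀ i ∈ T, 0 ≤ e i := fun i hi => (sq_nonneg _).trans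
    (he i hi i hi _ (mem_ball_self (by linarith [hr i hi])) (mem_ball_self (by linarith [hr i hi])))
  have hg : ∀ z, gr f z ≤
      ∑ i ∈ T, (ball (c i) (2 * r i)).indicator (fun _ => 2 * N * (e i * (L / r i) ^ 2)) z := fun z => by
    by_cases hz : z ∈ tsupport f
    swap
    · rw [gr, dx, dy, fderiv_of_notMem_tsupport ℝ hz]
      simp only [ContinuousLinearMap.zero_apply, ne_eq, OfNat.ofNat_ne_zero, not_false_eq_true, zero_pow,
        add_zero]
      exact Finset.sum_nonneg fun i hi => indicator_nonneg (fun _ _ => by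
        have := he0 i hi; positivity) _
    have h1 := hS1 z (hc z hz)
    have d1 : HasFDerivAt S (∑ i ∈ T, fderiv ℝ (β i) z) z :=
      HasFDerivAt.fun_sum fun i hi => ((b1 i hi).diff z).hasFDerivAt
    have d2 : HasFDerivAt P (∑ i ∈ T, v i • fderiv ℝ (β i) z) z :=
      HasFDerivAt.fun_sum fun i hi => ((b1 i hi).diff z).hasFDerivAt.const_mul _
    have d3 := (((hT.diff z).hasFDerivAt.mul d1).congr_of_eventuallyEq (f₁ := P) (by
      filter_upwards [(hSc.continuous.tendsto z).eventually_const_lt (one_pos.trans_le h1)] with y hy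
      exact (div_mul_cancel₀ _ hy.ne').symm)).unique d2
    have d4 : S z • fderiv ℝ f z = ∑ i ∈ T, (v i - f z) • fderiv ℝ (β i) z := by
      simp only [sub_smul, Finset.sum_sub_distrib, ← Finset.smul_sum]
      rw [← d3]; abel
    have d5 : ‖fderiv ℝ f z‖ ≤
        ∑ i ∈ T.filter fun i => z ∈ ball (c i) (2 * r i), √(e i) * (L / r i) := by
      refine (le_mul_of_one_le_left (norm_nonneg _) (h1.trans (le_abs_self _))).trans ?_
      rw [← Real.norm_eq_abs, ← norm_smul, d4, Finset.sum_filter]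
      refine (norm_sum_le _ _).trans (Finset.sum_le_sum fun i hi => ?_)
      split_ifs with hi'
      · rw [norm_smul, Real.norm_eq_abs, abs_sub_comm]
        exact mul_le_mul (hconv z _ _ (hc z hz) fun j hj hj' =>
          Real.abs_le_sqrt (he i hi j hj z hi' hj')) ((hβ i (hr i hi)).2.2.2 z) (norm_nonneg _)
          (Real.sqrt_nonneg _)
      · rw [fderiv_of_notMem_tsupport ℝ fun h => hi' ((b1 i hi).2.2 h)]; simp
    have d6 := (pow_le_pow_left₀ (norm_nonneg _) d5 2).trans (sq_sum_le_card_mul_sum_sq.trans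
      (mul_le_mul_of_nonneg_right (Nat.cast_le.2 (hN z)) (Finset.sum_nonneg fun _ _ => sq_nonneg _)))
    refine (gr_le_norm_sq f z).trans ((mul_le_mul_of_nonneg_left d6 zero_le_two).trans_eq ?_)
    simp only [indicator_apply]
    rw [← Finset.sum_filter, ← mul_assoc, Finset.mul_sum]
    refine Finset.sum_congr rfl fun i hi => ?_
    rw [mul_pow, Real.sq_sqrt (he0 i (Finset.mem_filter.1 hi).1)]
  have hi : ∀ i ∈ T, Integrable
      ((ball (c i) (2 * r i)).indicator fun _ => 2 * N * (e i * (L / r i) ^ 2)) := fun i _ =>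
    (integrable_indicator_iff measurableSet_ball).2 (integrableOn_const measure_ball_lt_top.ne)
  refine (integral_mono (hT.cont_gr.integrable_of_hasCompactSupport hT.cs_gr)
    (integrable_finset_sum _ hi) hg).trans ?_
  rw [integral_finset_sum _ hi, Finset.mul_sum]
  refine Finset.sum_le_sum fun i hi => ?_
  have h1 := hr i hi
  rw [integral_indicator measurableSet_ball, setIntegral_const, vol_ball _ (by positivity), smul_eq_mul,
    show (2 * r i) ^ 2 * Real.pi * (2 * N * (e i * (L / r i) ^ 2)) = Real.pi * (8 * L ^ 2 * N * e i) by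
      field_simp; ring]
  have := he0 i hi
  nlinarith [Real.pi_le_four, (by positivity : (0 : ℝ) ≤ 8 * L ^ 2 * N * e i)]

end Crest.Agent.R193.EB
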