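import Crest.Agent.R193.B.Cov

/-!
# R193/E/L1: ultralimits of weighted sums over a graded index set
-/

set_option autoImplicit false
open Set Metric Filter Topology MeasureTheory

noncomputable section

namespace Crest.Agent.R193.EB

/-- the weights `δ (1+δ)^{-t}`, `δ = 1/(k+1)` -/
def ewt (k t : ℕ) : ℝ := ((k : ℝ) + 1)⁻¹ * (1 + ((k : ℝ) + 1)⁻¹)⁻¹ ^ t

theorem ewt_pos (k t : ℕ) : 0 < ewt k t := by unfold ewt; positivity

theorem ewt_ratio_le_one (k : ℕ) : (1 + ((k : ℝ) + 1)⁻¹)⁻¹ ≤ 1 :=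
  inv_le_one_of_one_le₀ (le_add_of_nonneg_right (by positivity))

theorem ewt_le (k t : ℕ) : ewt k t ≤ ((k : ℝ) + 1)⁻¹ :=
  mul_le_of_le_one_right (by positivity) (pow_le_one₀ (by positivity) (ewt_ratio_le_one k))

theorem ewt_hasSum (k : ℕ) : HasSum (ewt k) (1 + ((k : ℝ) + 1)⁻¹) := by
  have h := (hasSum_geometric_of_lt_one (r := (1 + ((k : ℝ) + 1)⁻¹)⁻¹) (by positivity)
    (inv_lt_one_of_one_lt₀ (lt_add_of_pos_right _ (by positivity)))).mul_left ((k : ℝ) + 1)⁻¹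
  have e : ((k : ℝ) + 1)⁻¹ * (1 - (1 + ((k : ℝ) + 1)⁻¹)⁻¹)⁻¹ = 1 + ((k : ℝ) + 1)⁻¹ := by
    have : (1 : ℝ) - (1 + ((k : ℝ) + 1)⁻¹)⁻¹ = ((k : ℝ) + 2)⁻¹ := by field_simp; ring
    rw [this]; field_simp; ring
  rw [e] at h
  exact h

theorem ewt_sum_le (k : ℕ) (T : Finset ℕ) : ∑ t ∈ T, ewt k t ≤ 2 := by
  refine (sum_le_hasSum T (fun t _ => (ewt_pos k t).le) (ewt_hasSum k)).trans ?_
  have : ((k : ℝ) + 1)⁻¹ ≤ 1 := inv_le_one_of_one_le₀ (le_add_of_nonneg_left (Nat.cast_nonneg k))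
  linarith

theorem ewt_shift (k : ℕ) {t t' c : ℕ} (h : t ≤ t' + c) :
    ewt k t' ≤ (1 + ((k : ℝ) + 1)⁻¹) ^ c * ewt k t := by
  have h1 : (1 + ((k : ℝ) + 1)⁻¹)⁻¹ ^ (t' + c) ≤ (1 + ((k : ℝ) + 1)⁻¹)⁻¹ ^ t :=
    pow_le_pow_of_le_one (by positivity) (ewt_ratio_le_one k) h
  have h2 : (1 + ((k : ℝ) + 1)⁻¹) ^ c * (1 + ((k : ℝ) + 1)⁻¹)⁻¹ ^ (t' + c) =
      (1 + ((k : ℝ) + 1)⁻¹)⁻¹ ^ t' := by
    rw [pow_add, mul_left_comm, ← mul_pow, mul_inv_cancel₀ (by positivity), one_pow, mul_one]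
  rw [ewt, ewt, mul_left_comm, ← h2]
  exact mul_le_mul_of_nonneg_left (mul_le_mul_of_nonneg_left h1 (by positivity)) (by positivity)

theorem ewt_window (k : ℕ) {t : ℕ} (h : t ≤ 2 * (k + 1)) : ((k : ℝ) + 1)⁻¹ ≤ 9 * ewt k t := by
  have h1 := ewt_shift k (t := t) (t' := 0) (c := 2 * (k + 1)) (by simpa using h)
  have h2 : (1 + ((k : ℝ) + 1)⁻¹) ^ (2 * (k + 1)) ≤ 9 := by
    calc _ ≤ Real.exp (((k : ℝ) + 1)⁻¹) ^ (2 * (k + 1)) :=
          pow_le_pow_left₀ (by positivity) (by linarith [Real.add_one_le_exp ((k : ℝ) + 1)⁻¹]) _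
      _ = Real.exp 1 ^ 2 := by
          rw [← Real.exp_nat_mul, ← Real.exp_nat_mul]; congr 1; push_cast; field_simp
      _ ≤ 9 := by nlinarith [Real.exp_one_lt_d9, Real.exp_pos 1]
  have h3 : ewt k 0 = ((k : ℝ) + 1)⁻¹ := by simp [ewt]
  rw [← h3]
  exact h1.trans (mul_le_mul_of_nonneg_right h2 (ewt_pos k t).le)

theorem tendsto_inv_𝒰 : Tendsto (fun k : ℕ => ((k : ℝ) + 1)⁻¹) 𝒰 (𝓝 0) := by
  simpa only [one_div] using (tendsto_one_div_add_atTop_nhds_zero_nat (𝕜 := ℝ)).mono_left 𝒰_le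

theorem ev_le_mul {ε : ℝ} (hε : 0 < ε) (c : ℝ) : ∀ᶠ k : ℕ in 𝒰, c ≤ ε * ((k : ℝ) + 1) :=
  (((tendsto_atTop_add_const_right _ 1 tendsto_natCast_atTop_atTop).const_mul_atTop
    hε).eventually_ge_atTop c).filter_mono 𝒰_le

theorem tendsto_limUnder_𝒰 {x : ℕ → ℝ} {M : ℝ} (h : ∀ᶠ k in 𝒰, |x k| ≤ M) :
    Tendsto x 𝒰 (𝓝 (limUnder 𝒰 x)) := by
  obtain ⟨a, -, ha⟩ := (isCompact_Icc (a := -M) (b := M)).ultrafilter_le_nhds
    (Ultrafilter.map x (hyperfilter ℕ)) (le_principal_iff.2 (h.mono fun k hk => abs_le.1 hk))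
  exact tendsto_nhds_limUnder ⟨a, ha⟩

/-- diagonal choice along `𝒰` -/
theorem exists_diag {P : ℕ → ℕ → Prop} (h : ∀ j, ∀ᶠ k in 𝒰, P j k) :
    ∃ J : ℕ → ℕ, Tendsto J 𝒰 atTop ∧ ∀ᶠ k in 𝒰, P (J k) k := by
  classical
  refine ⟨fun k => Nat.findGreatest (fun j => P j k) k, tendsto_atTop.2 fun j => ?_, ?_⟩
  · filter_upwards [h j, (eventually_ge_atTop j).filter_mono 𝒰_le] with k h1 h2
    exact Nat.le_findGreatest h2 h1
  · filter_upwards [h 0] with k hk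
    exact Nat.findGreatest_spec (P := fun j => P j k) (Nat.zero_le k) hk

variable {I : Type} (ht : I → ℕ)

/-- eventually uniformly summable fields -/
def Fl1 (c : ℕ → I → ℝ) : Prop := ∃ M : ℝ, ∀ᶠ k in 𝒰,
  Summable (fun p => ewt k (ht p) * |c k p|) ∧ ∑' p, ewt k (ht p) * |c k p| ≤ M

/-- the limit functional -/
def LI (c : ℕ → I → ℝ) : ℝ := limUnder 𝒰 fun k => ∑' p, ewt k (ht p) * c k p

variable {ht}

theorem sm_of_abs {k : ℕ} {c : I → ℝ} (h : Summable fun p => ewt k (ht p) * |c p|) :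
    Summable fun p => ewt k (ht p) * c p :=
  Summable.of_norm (by simpa only [Real.norm_eq_abs, abs_mul, abs_of_pos (ewt_pos _ _)] using h)

theorem Fl1.summable {c : ℕ → I → ℝ} (h : Fl1 ht c) :
    ∀ᶠ k in 𝒰, Summable fun p => ewt k (ht p) * c k p :=
  let ⟨_, hM⟩ := h; hM.mono fun _ hk => sm_of_abs hk.1

theorem Fl1.tendsto {c : ℕ → I → ℝ} (h : Fl1 ht c) :
    Tendsto (fun k => ∑' p, ewt k (ht p) * c k p) 𝒰 (𝓝 (LI ht c)) := by
  obtain ⟨M, hM⟩ := h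
  refine tendsto_limUnder_𝒰 (M := M) (hM.mono fun k hk => le_trans ?_ hk.2)
  have := norm_tsum_le_tsum_norm (f := fun p => ewt k (ht p) * c k p)
    (by simpa only [Real.norm_eq_abs, abs_mul, abs_of_pos (ewt_pos _ _)] using hk.1)
  simpa only [Real.norm_eq_abs, abs_mul, abs_of_pos (ewt_pos _ _)] using this

theorem Fl1.of_le_add {c c₁ c₂ : ℕ → I → ℝ} (h₁ : Fl1 ht c₁) (h₂ : Fl1 ht c₂) {A B : ℝ}
    (hA : 0 ≤ A) (hB : 0 ≤ B) (h : ∀ᶠ k in 𝒰, ∀ p, |c k p| ≤ A * |c₁ k p| + B * |c₂ k p|) :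
    Fl1 ht c := by
  obtain ⟨M₁, h₁⟩ := h₁
  obtain ⟨M₂, h₂⟩ := h₂
  refine ⟨A * M₁ + B * M₂, ?_⟩
  filter_upwards [h₁, h₂, h] with k a b hk
  have hs := (a.1.mul_left A).add (b.1.mul_left B)
  have hle : ∀ p, ewt k (ht p) * |c k p| ≤ A * (ewt k (ht p) * |c₁ k p|) +
      B * (ewt k (ht p) * |c₂ k p|) := fun p => by
    nlinarith [mul_le_mul_of_nonneg_left (hk p) (ewt_pos k (ht p)).le]
  have hs' := Summable.of_nonneg_of_le
    (fun p => mul_nonneg (ewt_pos k (ht p)).le (abs_nonneg (c k p))) hle hs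
  refine ⟨hs', (hs'.tsum_le_tsum hle hs).trans ?_⟩
  rw [(a.1.mul_left A).tsum_add (b.1.mul_left B), tsum_mul_left, tsum_mul_left]
  exact add_le_add (mul_le_mul_of_nonneg_left a.2 hA) (mul_le_mul_of_nonneg_left b.2 hB)

theorem Fl1.of_le {c c₁ : ℕ → I → ℝ} (h₁ : Fl1 ht c₁) {A : ℝ} (hA : 0 ≤ A)
    (h : ∀ᶠ k in 𝒰, ∀ p, |c k p| ≤ A * |c₁ k p|) : Fl1 ht c :=
  h₁.of_le_add h₁ hA le_rfl (h.mono fun k hk p => by simpa using hk p)

theorem Fl1.lin {c₁ c₂ : ℕ → I → ℝ} (h₁ : Fl1 ht c₁) (h₂ : Fl1 ht c₂) (s t : ℝ) :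
    Fl1 ht fun k p => s * c₁ k p + t * c₂ k p :=
  h₁.of_le_add h₂ (abs_nonneg s) (abs_nonneg t) (Eventually.of_forall fun k p => by
    rw [← abs_mul, ← abs_mul]; exact abs_add_le _ _)

theorem LI_lin {c₁ c₂ : ℕ → I → ℝ} (h₁ : Fl1 ht c₁) (h₂ : Fl1 ht c₂) (s t : ℝ) :
    LI ht (fun k p => s * c₁ k p + t * c₂ k p) = s * LI ht c₁ + t * LI ht c₂ := by
  refine tendsto_nhds_unique (h₁.lin h₂ s t).tendsto
    (((h₁.tendsto.const_mul s).add (h₂.tendsto.const_mul t)).congr' ?_)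
  filter_upwards [h₁.summable, h₂.summable] with k a b
  rw [← tsum_mul_left, ← tsum_mul_left, ← (a.mul_left s).tsum_add (b.mul_left t)]
  exact tsum_congr fun p => by ring

theorem LI_mono {c₁ c₂ : ℕ → I → ℝ} (h₁ : Fl1 ht c₁) (h₂ : Fl1 ht c₂)
    (h : ∀ᶠ k in 𝒰, ∀ p, c₁ k p ≤ c₂ k p) : LI ht c₁ ≤ LI ht c₂ := by
  refine le_of_tendsto_of_tendsto h₁.tendsto h₂.tendsto ?_
  filter_upwards [h₁.summable, h₂.summable, h] with k a b hk
  exact a.tsum_le_tsum (fun p => mul_le_mul_of_nonneg_left (hk p) (ewt_pos _ _).le) b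

theorem LI_nonneg {c : ℕ → I → ℝ} (h₁ : Fl1 ht c) (h : ∀ k p, 0 ≤ c k p) : 0 ≤ LI ht c :=
  ge_of_tendsto' h₁.tendsto fun k => tsum_nonneg fun p => mul_nonneg (ewt_pos _ _).le (h k p)

/-- `LI c ≤ s LI c₁ + t LI c₂` from a pointwise inequality -/
theorem LI_le_lin {c c₁ c₂ : ℕ → I → ℝ} (h₀ : Fl1 ht c) (h₁ : Fl1 ht c₁) (h₂ : Fl1 ht c₂) (s t : ℝ)
    (h : ∀ k p, c k p ≤ s * c₁ k p + t * c₂ k p) : LI ht c ≤ s * LI ht c₁ + t * LI ht c₂ :=
  (LI_mono h₀ (h₁.lin h₂ s t) (Eventually.of_forall h)).trans_eq (LI_lin h₁ h₂ s t)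

theorem Fl1.shift {c : ℕ → I → ℝ} (h : Fl1 ht c) (e : I ≃ I) {b : ℕ}
    (h1 : ∀ p, ht (e p) ≤ ht p + b) (h2 : ∀ p, ht p ≤ ht (e p) + b) :
    Fl1 ht (fun k p => c k (e p)) ∧ LI ht (fun k p => c k (e p)) = LI ht c := by
  obtain ⟨M, hM⟩ := id h
  set ρ : ℕ → ℝ := fun k => (1 + ((k : ℝ) + 1)⁻¹) ^ b with hρ
  have hρ1 : ∀ k, 1 ≤ ρ k := fun k => one_le_pow₀ (le_add_of_nonneg_right (by positivity))
  have hρ2 : ∀ k, ρ k ≤ 2 ^ b := fun k => pow_le_pow_left₀ (by positivity) (by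
    have : ((k : ℝ) + 1)⁻¹ ≤ 1 := inv_le_one_of_one_le₀ (le_add_of_nonneg_left (Nat.cast_nonneg k))
    linarith) b
  have hρt : Tendsto ρ 𝒰 (𝓝 1) := by
    simpa using (tendsto_inv_𝒰.const_add 1).pow b
  have a1 : ∀ k p, ewt k (ht p) ≤ ρ k * ewt k (ht (e p)) := fun k p => ewt_shift k (h1 p)
  have a2 : ∀ k p, ewt k (ht (e p)) ≤ ρ k * ewt k (ht p) := fun k p => ewt_shift k (h2 p)
  have hF : Fl1 ht fun k p => c k (e p) := by
    refine ⟨2 ^ b * M, hM.mono fun k hk => ?_⟩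
    have hs := ((e.summable_iff (f := fun p => ewt k (ht p) * |c k p|)).2 hk.1).mul_left (2 ^ b)
    have hle : ∀ p, ewt k (ht p) * |c k (e p)| ≤ 2 ^ b * (ewt k (ht (e p)) * |c k (e p)|) :=
      fun p => by
        rw [← mul_assoc]
        exact mul_le_mul_of_nonneg_right ((a1 k p).trans
          (mul_le_mul_of_nonneg_right (hρ2 k) (ewt_pos _ _).le)) (abs_nonneg _)
    have hs' := Summable.of_nonneg_of_le
      (fun p => mul_nonneg (ewt_pos k (ht p)).le (abs_nonneg (c k (e p)))) hle hs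
    refine ⟨hs', (hs'.tsum_le_tsum hle hs).trans ?_⟩
    rw [tsum_mul_left]
    refine mul_le_mul_of_nonneg_left ?_ (by positivity)
    exact (e.tsum_eq fun p => ewt k (ht p) * |c k p|).trans_le hk.2
  refine ⟨hF, tendsto_nhds_unique hF.tendsto ?_⟩
  have h0 : Tendsto (fun k => (ρ k - 1) * M) 𝒰 (𝓝 0) := by
    simpa using (hρt.sub_const 1).mul_const M
  have hd : Tendsto (fun k => ∑' p, ewt k (ht p) * c k (e p) - ∑' p, ewt k (ht p) * c k p) 𝒰 (𝓝 0) := by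
    refine squeeze_zero_norm' ?_ h0
    filter_upwards [hM, hF.summable] with k hk hs
    have hs1 : Summable fun p => ewt k (ht (e p)) * |c k (e p)| :=
      (e.summable_iff (f := fun p => ewt k (ht p) * |c k p|)).2 hk.1
    have hs2 : Summable fun p => ewt k (ht (e p)) * c k (e p) :=
      (e.summable_iff (f := fun p => ewt k (ht p) * c k p)).2 (sm_of_abs hk.1)
    rw [← e.tsum_eq fun p => ewt k (ht p) * c k p, ← hs.tsum_sub hs2]
    refine (tsum_of_norm_bounded (hs1.mul_left (ρ k - 1)).hasSum fun p => ?_).trans ?_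
    · rw [← sub_mul, Real.norm_eq_abs, abs_mul, ← mul_assoc]
      refine mul_le_mul_of_nonneg_right (abs_le.2 ⟨?_, by linarith [a1 k p]⟩) (abs_nonneg _)
      have b1 := a2 k p
      have b2 := ewt_pos k (ht p)
      have b3 := ewt_pos k (ht (e p))
      have b4 := hρ1 k
      by_cases hc : ewt k (ht (e p)) ≤ ewt k (ht p)
      · nlinarith
      · nlinarith
    · rw [tsum_mul_left]
      refine mul_le_mul_of_nonneg_left ?_ (sub_nonneg.2 (hρ1 k))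
      exact (e.tsum_eq fun p => ewt k (ht p) * |c k p|).trans_le hk.2
  simpa using hd.add h.tendsto

section level
variable {lv : ℕ → Finset I} (hlv : ∀ t p, p ∈ lv t ↔ ht p = t)
include hlv

theorem sum_le_levels {k : ℕ} {c : I → ℝ} (hc : ∀ p, 0 ≤ c p) (T : Finset I) :
    ∃ N : ℕ, ∑ p ∈ T, ewt k (ht p) * c p ≤ ∑ t ∈ Finset.range N, ewt k t * ∑ p ∈ lv t, c p := by
  classical
  refine ⟨T.sup ht + 1, ?_⟩
  rw [← Finset.sum_fiberwise_of_maps_to (t := Finset.range (T.sup ht + 1)) (g := ht)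
    fun p hp => Finset.mem_range.2 (Nat.lt_succ_of_le (Finset.le_sup hp))]
  refine Finset.sum_le_sum fun t _ => ?_
  rw [Finset.mul_sum, Finset.sum_congr rfl (g := fun p => ewt k t * c p)
    fun p hp => by rw [(Finset.mem_filter.1 hp).2]]
  exact Finset.sum_le_sum_of_subset_of_nonneg
    (fun p hp => (hlv t p).2 (Finset.mem_filter.1 hp).2)
    fun p _ _ => mul_nonneg (ewt_pos _ _).le (hc p)

/-- upper bounds from level sums -/
theorem LI_level {c : ℕ → I → ℝ} (hc : ∀ k p, 0 ≤ c k p) {M A : ℝ} (hA : 0 ≤ A)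
    (hM : ∀ᶠ k in 𝒰, ∀ t, ∑ p ∈ lv t, c k p ≤ M)
    (h : ∀ ε : ℝ, 0 < ε → ∀ᶠ k : ℕ in 𝒰, ∀ t : ℕ, ε * ((k : ℝ) + 1) ≤ t → ∑ p ∈ lv t, c k p ≤ A + ε) :
    Fl1 ht c ∧ LI ht c ≤ 2 * A := by
  have hM0 : 0 ≤ M := by
    obtain ⟨k, hk⟩ := hM.exists
    exact (Finset.sum_nonneg fun p _ => hc k p).trans (hk 0)
  have hnn : ∀ k p, 0 ≤ ewt k (ht p) * c k p := fun k p => mul_nonneg (ewt_pos _ _).le (hc k p)
  have hF : Fl1 ht c := by
    refine ⟨2 * M, hM.mono fun k hk => ?_⟩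
    simp only [abs_of_nonneg (hc _ _)]
    have hb : ∀ T : Finset I, ∑ p ∈ T, ewt k (ht p) * c k p ≤ 2 * M := fun T => by
      obtain ⟨N, hN⟩ := sum_le_levels hlv (k := k) (hc k) T
      refine hN.trans ((Finset.sum_le_sum fun t _ =>
        mul_le_mul_of_nonneg_left (hk t) (ewt_pos k t).le).trans ?_)
      rw [← Finset.sum_mul]
      exact mul_le_mul_of_nonneg_right (ewt_sum_le k _) hM0
    exact ⟨summable_of_sum_le (hnn k) hb, Real.tsum_le_of_sum_le (hnn k) hb⟩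
  refine ⟨hF, le_of_forall_pos_le_add fun δ hδ => ?_⟩
  set ε := δ / (2 * M + 2) with hε
  have hε0 : 0 < ε := by positivity
  refine le_of_tendsto hF.tendsto ?_
  filter_upwards [hM, h ε hε0, ev_le_mul hε0 1] with k h1 h2 h3
  refine Real.tsum_le_of_sum_le (hnn k) fun T => ?_
  obtain ⟨N, hN⟩ := sum_le_levels hlv (k := k) (hc k) T
  have hk : (0 : ℝ) < (k : ℝ) + 1 := by positivity
  set m := ⌈ε * ((k : ℝ) + 1)⌉₊ with hm
  have b1 : ∀ t, ewt k t * ∑ p ∈ lv t, c k p ≤ ewt k t * (A + ε) +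
      if t ∈ Finset.range m then ((k : ℝ) + 1)⁻¹ * M else 0 := fun t => by
    split_ifs with ht'
    · exact (mul_le_mul (ewt_le k t) (h1 t) (Finset.sum_nonneg fun p _ => hc k p)
        (by positivity)).trans (le_add_of_nonneg_left (mul_nonneg (ewt_pos k t).le (by positivity)))
    · rw [add_zero]
      exact mul_le_mul_of_nonneg_left (h2 t (Nat.ceil_le.1
        (not_lt.1 fun h => ht' (Finset.mem_range.2 h)))) (ewt_pos k t).le
  refine hN.trans ((Finset.sum_le_sum fun t _ => b1 t).trans ?_)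
  rw [Finset.sum_add_distrib, ← Finset.sum_mul, Finset.sum_ite_mem, Finset.sum_const, nsmul_eq_mul]
  have b2 : ((Finset.range N ∩ Finset.range m).card : ℝ) ≤ 2 * ε * ((k : ℝ) + 1) := by
    have b3 : (Finset.range N ∩ Finset.range m).card ≤ m :=
      (Finset.card_le_card Finset.inter_subset_right).trans_eq (Finset.card_range m)
    have b4 : (m : ℝ) < ε * ((k : ℝ) + 1) + 1 := Nat.ceil_lt_add_one (by positivity)
    have b5 : ((Finset.range N ∩ Finset.range m).card : ℝ) ≤ m := by exact_mod_cast b3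
    linarith
  have b6 := mul_le_mul_of_nonneg_right b2 (by positivity : 0 ≤ ((k : ℝ) + 1)⁻¹ * M)
  have b7 : 2 * ε * ((k : ℝ) + 1) * (((k : ℝ) + 1)⁻¹ * M) = 2 * ε * M := by field_simp
  have b8 := mul_le_mul_of_nonneg_right (ewt_sum_le k (Finset.range N)) (by positivity : 0 ≤ A + ε)
  have b9 : ε * (2 * M + 2) = δ := by rw [hε]; field_simp
  nlinarith

/-- a level with small sum in the window `[k+1, 2(k+1))` -/
theorem exists_level {c : ℕ → I → ℝ} (hc : ∀ k p, 0 ≤ c k p) (hF : Fl1 ht c) {ε : ℝ} (hε : 0 < ε) :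
    ∀ᶠ k in 𝒰, ∃ t : ℕ, k + 1 ≤ t ∧ ∑ p ∈ lv t, c k p ≤ 9 * (LI ht c + ε) := by
  classical
  filter_upwards [hF.summable, hF.tendsto.eventually_le_const (lt_add_of_pos_right _ hε)] with k h1 h2
  by_contra hcon
  push Not at hcon
  set T := Finset.Ico (k + 1) (2 * (k + 1))
  have hk : (0 : ℝ) < (k : ℝ) + 1 := by positivity
  have b1 : ∑ t ∈ T, ewt k t * ∑ p ∈ lv t, c k p ≤ LI ht c + ε := by
    refine le_trans ?_ ((h1.sum_le_tsum (T.biUnion lv)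
      fun p _ => mul_nonneg (ewt_pos _ _).le (hc k p)).trans h2)
    rw [Finset.sum_biUnion fun t _ t' _ htt => Finset.disjoint_left.2 fun p hp hp' =>
      htt (((hlv t p).1 hp).symm.trans ((hlv t' p).1 hp'))]
    refine Finset.sum_le_sum fun t _ => ?_
    rw [Finset.mul_sum]
    exact (Finset.sum_congr rfl fun p hp => by rw [(hlv t p).1 hp]).le
  have h0 : 0 < LI ht c + ε := add_pos_of_nonneg_of_pos (LI_nonneg hF hc) hε
  have b2 : ∑ _t ∈ T, ((k : ℝ) + 1)⁻¹ * (LI ht c + ε) < ∑ t ∈ T, ewt k t * ∑ p ∈ lv t, c k p := by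
    refine Finset.sum_lt_sum_of_nonempty ⟨k + 1, by simp [T]⟩ fun t htT => ?_
    obtain ⟨a1, a2⟩ := Finset.mem_Ico.1 htT
    have a3 := ewt_window k a2.le
    have a4 := hcon t a1
    nlinarith [ewt_pos k t, mul_lt_mul_of_pos_left a4 (ewt_pos k t)]
  rw [Finset.sum_const, Nat.card_Ico, nsmul_eq_mul,
    show 2 * (k + 1) - (k + 1) = k + 1 by omega] at b2
  push_cast at b2
  rw [← mul_assoc, mul_inv_cancel₀ hk.ne', one_mul] at b2
  linarith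

end level

end Crest.Agent.R193.EB
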