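import Crest.Agent.R193.E.Apx

/-!
# R193/E/Main: the invariant form.  Blueprint: notes193/R193.md.  The statements below are FROZEN; the block owner fills them.
-/

set_option autoImplicit false
open Set Metric Filter Topology MeasureTheory

namespace Crest.Agent.R193

variable {G : Type} [Group G] {Z : Type} [MetricSpace Z] [CompactSpace Z] [MulAction G Z]

theorem exists_form (H : HA G Z) {φ : Z → ℂ} {V : Set Z} (hφ : QC φ V) (hV : V.Nonempty) :
    Nonempty (Form G φ V) := by
  obtain ⟨lam, hG⟩ := EB.exists_geo H hφ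
  obtain ⟨S, C, hC0, hC⟩ := EB.approx_seq hφ hG
  obtain ⟨x, hx⟩ := hV
  obtain ⟨r, hr, hB⟩ := nhds_basis_closedBall.mem_iff.1
    ((hφ.openMap V Subset.rfl hφ.isOpen).mem_nhds (mem_image_of_mem φ hx))
  obtain ⟨C', a₁, a₂, a₃, hC', hm, hb, hrep⟩ := EB.exists_rep hφ hG S hB
  have hB' := ball_subset_closedBall.trans hB
  refine ⟨{
    z₀ := φ x, r₀ := r, C := C + C' + 1, D := EB.DD H S, B := EB.BB H S fun _ => 1
    a₁ := a₁, a₂ := a₂, a₃ := a₃, r₀_pos := hr, C_pos := by positivity, sub := hB', meas := hm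
    bound := fun z => ⟨by linarith [(hb z).1], by linarith [(hb z).2.1], by linarith [(hb z).2.2]⟩
    inv_D := fun g _ hw => hw.sh g
    inv_B := fun g _ _ hw hw' => EB.BB_sh hw hw' g
    symm := fun _ _ _ _ => EB.BB_symm _ _ _
    tst_D := fun f hf => EB.dd_ext hφ hG (hf.mono hB')
    rep := hrep
    approx := fun w hw _ hs => ?_ }⟩
  obtain ⟨f, f1, f2, f3, f4⟩ := hC _ isOpen_ball hB' w hw hs
  exact ⟨f, f1, f2, fun j => (f3 j).trans (mul_le_mul_of_nonneg_right (by linarith)
    (add_nonneg (EB.BB_nonneg hw) (by positivity))), f4⟩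

end Crest.Agent.R193
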