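import Crest.Agent.R193.E.Tst

/-!
# R193/E/Rep: local forms dominated by the Dirichlet energy have `L^∞` coefficients
-/

set_option autoImplicit false
open Set Metric Filter Topology MeasureTheory

noncomputable section

namespace Crest.Agent.R193.EB

/-- trilinear forms dominated by the Dirichlet energy -/
structure Tri (Ω : Set ℂ) (T : (ℂ → ℝ) → (ℂ → ℝ) → (ℂ → ℝ) → ℝ) (C : ℝ) : Prop where
  lin₁ : ∀ f h, Tst Ω f → Tst Ω h → TLin Ω fun χ => T χ f h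
  lin₂ : ∀ χ h, Tst Ω χ → Tst Ω h → TLin Ω fun f => T χ f h
  symm : ∀ χ f h, T χ f h = T χ h f
  bd : ∀ χ f h (s : ℝ), Tst Ω χ → Tst Ω f → Tst Ω h → 0 < s →
    |T χ f h| ≤ s / 2 * (C * ∫ z, |χ z| * gr f z) + s⁻¹ / 2 * (C * ∫ z, |χ z| * gr h z)

/-- the quadratic form with coefficients `a` -/
def qf (a₁ a₂ a₃ f h : ℂ → ℝ) (z : ℂ) : ℝ :=
  a₁ z * (dx f z * dx h z) + a₂ z * (dx f z * dy h z + dy f z * dx h z) + a₃ z * (dy f z * dy h z)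

variable {Ω : Set ℂ} {T T' : (ℂ → ℝ) → (ℂ → ℝ) → (ℂ → ℝ) → ℝ} {C C' : ℝ}

theorem Tri.sub (h : Tri Ω T C) (h' : Tri Ω T' C') :
    Tri Ω (fun χ f h => T χ f h - T' χ f h) (C + C') where
  lin₁ f g hf hg χ χ' s t a b := by
    simp only [h.lin₁ f g hf hg χ χ' s t a b, h'.lin₁ f g hf hg χ χ' s t a b]; ring
  lin₂ f g hf hg χ χ' s t a b := by
    simp only [h.lin₂ f g hf hg χ χ' s t a b, h'.lin₂ f g hf hg χ χ' s t a b]; ring
  symm χ f g := by rw [h.symm, h'.symm]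
  bd χ f g s a b c hs := by
    linarith [abs_sub (T χ f g) (T' χ f g), h.bd χ f g s a b c hs, h'.bd χ f g s a b c hs]

theorem int_qf {a₁ a₂ a₃ χ f h : ℂ → ℝ} (hm : Measurable a₁ ∧ Measurable a₂ ∧ Measurable a₃)
    (hb : ∀ z, |a₁ z| ≤ C ∧ |a₂ z| ≤ C ∧ |a₃ z| ≤ C) (hχ : Tst Ω χ) (hf : Tst Ω f) (hh : Tst Ω h) :
    Integrable fun z => χ z * qf a₁ a₂ a₃ f h z := by
  have key : ∀ a u : ℂ → ℝ, Measurable a → (∀ z, |a z| ≤ C) → Continuous u →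
      Integrable fun z => a z * (χ z * u z) := fun a u h1 h2 h3 =>
    ((hχ.cont.mul h3).integrable_of_hasCompactSupport hχ.2.1.mul_right).bdd_mul
      h1.aestronglyMeasurable (Eventually.of_forall h2)
  refine (((key _ _ hm.1 (fun z => (hb z).1) (hf.cont_dx.mul hh.cont_dx)).add
    (key _ _ hm.2.1 (fun z => (hb z).2.1) ((hf.cont_dx.mul hh.cont_dy).add
      (hf.cont_dy.mul hh.cont_dx)))).add
    (key _ _ hm.2.2 (fun z => (hb z).2.2) (hf.cont_dy.mul hh.cont_dy))).congr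
      (Eventually.of_forall fun z => ?_)
  simp only [qf, Pi.add_apply, Pi.mul_apply]; ring

theorem abs_qf_le {a₁ a₂ a₃ : ℂ → ℝ} (hb : ∀ z, |a₁ z| ≤ C ∧ |a₂ z| ≤ C ∧ |a₃ z| ≤ C)
    (f h : ℂ → ℝ) (z : ℂ) {s : ℝ} (hs : 0 < s) :
    |qf a₁ a₂ a₃ f h z| ≤ s / 2 * (2 * C * gr f z) + s⁻¹ / 2 * (2 * C * gr h z) := by
  have hC : 0 ≤ C := (abs_nonneg _).trans (hb z).1
  have k : ∀ x y : ℝ, |x * y| ≤ s / 2 * x ^ 2 + s⁻¹ / 2 * y ^ 2 := fun x y => by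
    have e : s / 2 * |x| ^ 2 + s⁻¹ / 2 * |y| ^ 2 - |x| * |y| = s⁻¹ / 2 * (s * |x| - |y|) ^ 2 := by
      field_simp; ring
    have : 0 ≤ s⁻¹ / 2 * (s * |x| - |y|) ^ 2 := by positivity
    rw [sq_abs, sq_abs] at e
    rw [abs_mul]; linarith
  have k2 : ∀ a x : ℝ, |a| ≤ C → |a * x| ≤ C * |x| := fun a x h => by
    rw [abs_mul]; exact mul_le_mul_of_nonneg_right h (abs_nonneg _)
  have h1 := (k2 _ _ (hb z).1).trans (mul_le_mul_of_nonneg_left (k (dx f z) (dx h z)) hC)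
  have h2 := (k2 _ _ (hb z).2.1).trans (mul_le_mul_of_nonneg_left ((abs_add_le _ _).trans
    (add_le_add (k (dx f z) (dy h z)) (k (dy f z) (dx h z)))) hC)
  have h3 := (k2 _ _ (hb z).2.2).trans (mul_le_mul_of_nonneg_left (k (dy f z) (dy h z)) hC)
  refine (abs_add_three _ _ _).trans ((add_le_add_three h1 h2 h3).trans_eq ?_)
  simp only [gr]; ring

theorem tri_qf {a₁ a₂ a₃ : ℂ → ℝ} (hm : Measurable a₁ ∧ Measurable a₂ ∧ Measurable a₃)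
    (hb : ∀ z, |a₁ z| ≤ C ∧ |a₂ z| ≤ C ∧ |a₃ z| ≤ C) :
    Tri Ω (fun χ f h => ∫ z, χ z * qf a₁ a₂ a₃ f h z) (2 * C) where
  lin₁ f g hf hg χ χ' s t a b := by
    simp only
    rw [← integral_const_mul, ← integral_const_mul, ← integral_add ((int_qf hm hb a hf hg).const_mul s)
      ((int_qf hm hb b hf hg).const_mul t)]
    congr 1; funext z; ring
  lin₂ χ g hχ hg f f' s t a b := by
    simp only
    rw [← integral_const_mul, ← integral_const_mul, ← integral_add ((int_qf hm hb hχ a hg).const_mul s)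
      ((int_qf hm hb hχ b hg).const_mul t)]
    congr 1; funext z
    simp only [qf, a.dx_lin b, a.dy_lin b]; ring
  symm χ f g := by congr 1; funext z; simp only [qf]; ring
  bd χ f g s a b c hs := by
    have i1 := ((a.int_abs_mul b.cont_gr).const_mul (2 * C)).const_mul (s / 2)
    have i2 := ((a.int_abs_mul c.cont_gr).const_mul (2 * C)).const_mul (s⁻¹ / 2)
    rw [← integral_const_mul, ← integral_const_mul, ← integral_const_mul, ← integral_const_mul,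
      ← integral_add i1 i2]
    refine abs_integral_le_integral_abs.trans (integral_mono (int_qf hm hb a b c).abs (i1.add i2)
      fun z => ?_)
    have := mul_le_mul_of_nonneg_left (abs_qf_le hb f g z hs) (abs_nonneg (χ z))
    simp only [abs_mul]
    linarith

theorem Tri.vanish (hT : Tri Ω T C) (hC : 0 ≤ C) {B : Set ℂ} (hB : B ⊆ Ω) {u₁ u₂ : ℂ → ℝ}
    (h₁ : Tst Ω u₁) (h₂ : Tst Ω u₂)
    (hu : ∀ z ∈ B, dx u₁ z = 1 ∧ dy u₁ z = 0 ∧ dx u₂ z = 0 ∧ dy u₂ z = 1) {h : ℂ → ℝ} (hh : Tst Ω h)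
    (h0 : ∀ χ, Tst B χ → T χ u₁ h = 0 ∧ T χ u₂ h = 0) {f χ : ℂ → ℝ} (hf : Tst Ω f) (hχ : Tst B χ) :
    T χ f h = 0 := by
  obtain ⟨M, hM⟩ := hh.cont_gr.bounded_above_of_compact_support hh.cs_gr
  refine eq_zero_of_abs_le (A := C * (1 + M) * ∫ z, |χ z|) fun s hs => ?_
  rw [← mul_assoc]
  refine loc_glob (L := fun χ => T χ f h) (fun χ χ' s t a b => hT.lin₁ f h hf hh χ χ' s t
    (a.mono hB) (b.mono hB)) (fun p hp => ?_) hχ
  have hl := h₁.lin h₂ (dx f p) (dy f p)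
  have hf' := hf.lin hl 1 (-1)
  have h3 : gr (fun z => 1 * f z + -1 * (dx f p * u₁ z + dy f p * u₂ z)) p < s⁻¹ ^ 2 := by
    obtain ⟨a, b, c, d⟩ := hu p hp
    rw [gr, hf.dx_lin hl, hf.dy_lin hl, h₁.dx_lin h₂, h₁.dy_lin h₂, a, b, c, d]
    simpa using pow_pos hs 2
  refine ⟨_, (hf'.cont_gr.tendsto p).eventually_lt_const h3, fun χ hχ hs' => ?_⟩
  have hχ' := hχ.mono hB
  have e1 := hT.lin₂ χ h hχ' hh _ _ 1 (-1) hf hl
  have e2 := hT.lin₂ χ h hχ' hh _ _ (dx f p) (dy f p) h₁ h₂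
  simp only [(h0 χ hχ).1, (h0 χ hχ).2] at e2
  simp only [e2, mul_zero, add_zero, one_mul (T χ f h)] at e1
  rw [← e1]
  refine (hT.bd _ _ _ s hχ' hf' hh hs).trans ?_
  have k : ∀ (u : ℂ → ℝ) (c : ℝ), Continuous u → (∀ z ∈ tsupport χ, u z ≤ c) →
      ∫ z, |χ z| * u z ≤ c * ∫ z, |χ z| := fun u c hu hc => by
    rw [← integral_const_mul]
    refine integral_mono (hχ.int_abs_mul hu) (hχ.int_abs.const_mul c) fun z => ?_
    by_cases hz : z ∈ tsupport χ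
    · simpa only [mul_comm] using mul_le_mul_of_nonneg_left (hc z hz) (abs_nonneg (χ z))
    · simp [image_eq_zero_of_notMem_tsupport hz]
  have k1 := mul_le_mul_of_nonneg_left (mul_le_mul_of_nonneg_left
    (k _ _ hf'.cont_gr fun z hz => (hs' hz).le) hC) (half_pos hs).le
  have k2 := mul_le_mul_of_nonneg_left (mul_le_mul_of_nonneg_left
    (k _ M hh.cont_gr fun z _ => (le_abs_self _).trans (hM z)) hC) (half_pos (inv_pos.2 hs)).le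
  refine (add_le_add k1 k2).trans_eq ?_
  field_simp

theorem Tri.rep (hT : Tri Ω T C) (hC : 0 ≤ C) (hΩ : IsOpen Ω) {z₀ : ℂ} {r₀ : ℝ}
    (hB : closedBall z₀ r₀ ⊆ Ω) : ∃ a₁ a₂ a₃ : ℂ → ℝ, (Measurable a₁ ∧ Measurable a₂ ∧ Measurable a₃) ∧
      (∀ z, |a₁ z| ≤ C ∧ |a₂ z| ≤ C ∧ |a₃ z| ≤ C) ∧
      ∀ χ f h, Tst (ball z₀ r₀) χ → Tst Ω f → Tst Ω h → T χ f h = ∫ z, χ z * qf a₁ a₂ a₃ f h z := by
  obtain ⟨ρ, r1, r2, -⟩ := exists_cut (isCompact_closedBall z₀ r₀) hΩ hB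
  have hB' := ball_subset_closedBall.trans hB
  have hd : ∀ (l : ℂ →L[ℝ] ℝ), ∀ z ∈ ball z₀ r₀, fderiv ℝ (fun z => l z * ρ z) z = l := fun l z hz => by
    refine (EventuallyEq.fderiv_eq ?_).trans l.fderiv
    filter_upwards [(eventually_nhdsSet_iff_forall.1 r2) z (ball_subset_closedBall hz)] with y hy
    rw [hy, mul_one]
  obtain ⟨u₁, u₂, h₁, h₂, hu⟩ : ∃ u₁ u₂, Tst Ω u₁ ∧ Tst Ω u₂ ∧
      ∀ z ∈ ball z₀ r₀, dx u₁ z = 1 ∧ dy u₁ z = 0 ∧ dx u₂ z = 0 ∧ dy u₂ z = 1 :=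
    ⟨_, _, r1.mul_left Complex.reCLM.contDiff, r1.mul_left Complex.imCLM.contDiff, fun z hz => by
      simp only [dx, dy, hd _ z hz]; simp⟩
  have key : ∀ u v, Tst Ω u → Tst Ω v → (∀ z ∈ ball z₀ r₀, gr u z = 1) → (∀ z ∈ ball z₀ r₀, gr v z = 1) →
      ∃ a : ℂ → ℝ, Measurable a ∧ (∀ z, |a z| ≤ C) ∧
        ∀ χ, Tst (ball z₀ r₀) χ → T χ u v = ∫ z, χ z * a z := fun u v hu hv gu gv =>
    riesz measurableSet_ball measure_ball_lt_top hC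
      (fun χ χ' s t a b => hT.lin₁ u v hu hv χ χ' s t (a.mono hB') (b.mono hB')) fun χ hχ => by
        have k : ∀ u : ℂ → ℝ, (∀ z ∈ ball z₀ r₀, gr u z = 1) → ∫ z, |χ z| * gr u z = ∫ z, |χ z| :=
          fun u gu => by
            congr 1; funext z
            by_cases hz : z ∈ ball z₀ r₀
            · rw [gu z hz, mul_one]
            · simp [hχ.eq_zero hz]
        have := hT.bd χ u v 1 (hχ.mono hB') hu hv one_pos
        rw [k u gu, k v gv, inv_one] at this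
        linarith
  have g1 : ∀ z ∈ ball z₀ r₀, gr u₁ z = 1 := fun z hz => by simp [gr, hu z hz]
  have g2 : ∀ z ∈ ball z₀ r₀, gr u₂ z = 1 := fun z hz => by simp [gr, hu z hz]
  obtain ⟨a₁, m₁, b₁, e₁⟩ := key _ _ h₁ h₁ g1 g1
  obtain ⟨a₂, m₂, b₂, e₂⟩ := key _ _ h₁ h₂ g1 g2
  obtain ⟨a₃, m₃, b₃, e₃⟩ := key _ _ h₂ h₂ g2 g2
  have hm : Measurable a₁ ∧ Measurable a₂ ∧ Measurable a₃ := ⟨m₁, m₂, m₃⟩
  have hb : ∀ z, |a₁ z| ≤ C ∧ |a₂ z| ≤ C ∧ |a₃ z| ≤ C := fun z => ⟨b₁ z, b₂ z, b₃ z⟩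
  have hD := hT.sub (tri_qf hm hb)
  have hC' : 0 ≤ C + 2 * C := by positivity
  have k : ∀ χ a q : ℂ → ℝ, Tst (ball z₀ r₀) χ → (∀ z ∈ ball z₀ r₀, q z = a z) →
      (∫ z, χ z * a z) - ∫ z, χ z * q z = 0 := fun χ a q hχ hq => by
    rw [sub_eq_zero]
    congr 1; funext z
    by_cases hz : z ∈ ball z₀ r₀
    · rw [hq z hz]
    · simp [hχ.eq_zero hz]
  have z12 : ∀ χ, Tst (ball z₀ r₀) χ → T χ u₁ u₂ - ∫ z, χ z * qf a₁ a₂ a₃ u₁ u₂ z = 0 := fun χ hχ => by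
    rw [e₂ χ hχ]; exact k _ _ _ hχ fun z hz => by simp [qf, hu z hz]
  refine ⟨a₁, a₂, a₃, hm, hb, fun χ f h hχ hf hh => sub_eq_zero.1 ?_⟩
  refine hD.vanish hC' hB' h₁ h₂ hu hh (fun χ hχ => ⟨?_, ?_⟩) hf hχ
  · refine (hD.symm _ _ _).trans (hD.vanish hC' hB' h₁ h₂ hu h₁ (fun χ hχ => ⟨?_, ?_⟩) hh hχ)
    · simp only [e₁ χ hχ]; exact k _ _ _ hχ fun z hz => by simp [qf, hu z hz]
    · exact (hD.symm _ _ _).trans (z12 χ hχ)
  · refine (hD.symm _ _ _).trans (hD.vanish hC' hB' h₁ h₂ hu h₂ (fun χ hχ => ⟨z12 χ hχ, ?_⟩) hh hχ)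
    simp only [e₃ χ hχ]; exact k _ _ _ hχ fun z hz => by simp [qf, hu z hz]

end Crest.Agent.R193.EB
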