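import Crest.Agent.R193.E.Geo
import Crest.Agent.R193.E.Rep

/-!
# R193/E/UB: the form is dominated by the Dirichlet energy
-/

set_option autoImplicit false
open Set Metric Filter Topology MeasureTheory

noncomputable section

namespace Crest.Agent.R193.EB

theorem vol_ball (c : ℂ) {r : ℝ} (hr : 0 ≤ r) : volume.real (ball c r) = r ^ 2 * Real.pi := by
  simp [Measure.real, Complex.volume_ball, ENNReal.toReal_ofReal hr]

open Classical in
theorem riemann {ι : Type} (T : Finset ι) (c : ι → ℂ) (r x : ι → ℝ) {N : ℕ}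
    (hN : ∀ z, (T.filter fun i => z ∈ ball (c i) (r i)).card ≤ N) {ψ : ℂ → ℝ} (hψ : Integrable ψ)
    (h0 : ∀ z, 0 ≤ ψ z) (hr : ∀ i ∈ T, 0 < r i)
    (hx : ∀ i ∈ T, ∀ z ∈ ball (c i) (r i), x i ≤ r i ^ 2 * ψ z) : ∑ i ∈ T, x i ≤ N * ∫ z, ψ z := by
  have h1 : ∀ i ∈ T, x i ≤ ∫ z, (ball (c i) (r i)).indicator ψ z := fun i hi => by
    have hi' := hr i hi
    rw [integral_indicator measurableSet_ball]
    have h2 := setIntegral_mono_on (μ := volume) (f := fun _ => x i / r i ^ 2) (s := ball (c i) (r i))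
      (integrableOn_const measure_ball_lt_top.ne) hψ.integrableOn measurableSet_ball
      fun z hz => (div_le_iff₀' (by positivity)).2 (hx i hi z hz)
    rw [setIntegral_const, vol_ball _ hi'.le, smul_eq_mul,
      show r i ^ 2 * Real.pi * (x i / r i ^ 2) = Real.pi * x i by field_simp] at h2
    rcases le_total (x i) 0 with h | h
    · exact h.trans (integral_nonneg h0)
    · nlinarith [Real.pi_gt_three]
  refine (Finset.sum_le_sum h1).trans ?_
  rw [← integral_finset_sum _ fun i _ => hψ.indicator measurableSet_ball, ← integral_const_mul]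
  refine integral_mono (integrable_finset_sum _ fun i _ => hψ.indicator measurableSet_ball)
    (hψ.const_mul _) fun z => ?_
  simp only [indicator_apply, ← Finset.sum_filter, Finset.sum_const, nsmul_eq_mul]
  exact mul_le_mul_of_nonneg_right (by exact_mod_cast hN z) (h0 z)

theorem norm_sq_le_gr (f : ℂ → ℝ) (z : ℂ) : ‖fderiv ℝ f z‖ ^ 2 ≤ 2 * gr f z := by
  have h : ‖fderiv ℝ f z‖ ≤ |dx f z| + |dy f z| := by
    refine ContinuousLinearMap.opNorm_le_bound _ (by positivity) fun w => ?_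
    have e : w = w.re • (1 : ℂ) + w.im • Complex.I := by simp [Complex.ext_iff]
    conv_lhs => rw [e, map_add, map_smul, map_smul]
    refine (norm_add_le _ _).trans ?_
    rw [norm_smul, norm_smul, add_mul, mul_comm |dx f z|, mul_comm |dy f z|]
    exact add_le_add (mul_le_mul_of_nonneg_right (Complex.abs_re_le_norm w) (abs_nonneg _))
      (mul_le_mul_of_nonneg_right (Complex.abs_im_le_norm w) (abs_nonneg _))
  have := pow_le_pow_left₀ (norm_nonneg _) h 2
  rw [gr, ← sq_abs (dx f z), ← sq_abs (dy f z)]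
  nlinarith [sq_nonneg (|dx f z| - |dy f z|)]

theorem gr_le_norm_sq (f : ℂ → ℝ) (z : ℂ) : gr f z ≤ 2 * ‖fderiv ℝ f z‖ ^ 2 := by
  have h1 : |dx f z| ≤ ‖fderiv ℝ f z‖ := by simpa [dx] using (fderiv ℝ f z).le_opNorm 1
  have h2 : |dy f z| ≤ ‖fderiv ℝ f z‖ := by simpa [dy] using (fderiv ℝ f z).le_opNorm Complex.I
  have h3 := pow_le_pow_left₀ (abs_nonneg _) h1 2
  have h4 := pow_le_pow_left₀ (abs_nonneg _) h2 2
  rw [sq_abs] at h3 h4
  rw [gr]; linarith

variable {G : Type} [Group G] {Z : Type} [MetricSpace Z] [CompactSpace Z] [MulAction G Z]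
  {H : HA G Z} {φ : Z → ℂ} {V : Set Z} {lam : G → ℝ}

theorem level_ub (hφ : QC φ V) (hG : Geo H φ V lam) (S : Finset G) : ∃ C : ℝ, 0 ≤ C ∧
    ∀ f, Tst (φ '' V) f → ∀ (η : ℂ → ℝ) (M : ℝ), UniformContinuous η → (∀ z, 0 ≤ η z ∧ η z ≤ M) →
      ∀ η' : Z → ℝ, (∀ y ∈ V, η' y ≤ η (φ y)) → ∀ ε : ℝ, 0 < ε → ∀ᶠ t in atTop,
        ∑ p ∈ elv H S t, η' (H.ctr p.1) * dl S (fun g => ext φ V f (H.ctr g)) p ^ 2 ≤
          C * (∫ z, η z * gr f z) + ε := by
  classical
  obtain ⟨K, -, hK⟩ := H.ctr_nbr (S.sup H.len)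
  have hK' : ∀ (σ : S) g, dist (H.ctr (σ * g)) (H.ctr g) ≤ K * H.θ ^ H.len g :=
    fun σ g => hK σ g (Finset.le_sup σ.2)
  obtain ⟨A, hA, hb⟩ := hG.big K
  obtain ⟨N, hN⟩ := hG.mult hφ 1
  refine ⟨N * (S.card * A ^ 2 * 2), by positivity, fun f hf η M hη hM η' hη' ε hε => ?_⟩
  set q : ℂ → ℝ := fun z => ‖fderiv ℝ f z‖ ^ 2 with hq
  have hqc : Continuous q := hf.cont_fderiv.norm.pow 2
  have hqs : HasCompactSupport q :=
    (hf.2.1.fderiv (𝕜 := ℝ)).comp_left (g := fun L : ℂ →L[ℝ] ℝ => ‖L‖ ^ 2) (by simp)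
  obtain ⟨Mq, hMq⟩ := hqc.bounded_above_of_compact_support hqs
  have hMq' : ∀ z, q z ≤ Mq := fun z => (le_abs_self _).trans (hMq z)
  have hq0 : ∀ z, 0 ≤ q z := fun z => sq_nonneg _
  have hK₀ := cpt_pre hφ hf.2.1.isCompact hf.2.2
  obtain ⟨δ₀, hδ₀, h₁⟩ := hK₀.exists_cthickening_subset_open hφ.isOpen inter_subset_left
  set K₁ := cthickening δ₀ (V ∩ φ ⁻¹' tsupport f)
  have hK₁ : IsCompact K₁ := isClosed_cthickening.isCompact
  obtain ⟨R, hR⟩ := hK₁.exists_bound_of_continuousOn (hφ.cont.mono h₁)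
  set B := closedBall (0 : ℂ) (R + 1)
  have hB : 0 ≤ M + Mq + 1 := by linarith [(hM 0).1, (hM 0).2, hq0 0, hMq' 0]
  set D := N * (S.card * A ^ 2 * ((M + Mq + 1) * volume.real B)) with hD
  have hD0 : 0 ≤ D := by positivity
  set ε' := min 1 (ε / (D + 1))
  have hε' : 0 < ε' := by positivity
  have hε1 : ε' ≤ 1 := min_le_left _ _
  have hε2 : ε' * (D + 1) ≤ ε := (le_div_iff₀ (by positivity)).1 (min_le_right _ _)
  obtain ⟨δ₁, hδ₁, u₁⟩ := Metric.uniformContinuous_iff.1 hη ε' hε'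
  obtain ⟨δ₂, hδ₂, u₂⟩ := Metric.uniformContinuous_iff.1
    (hqs.uniformContinuous_of_continuous hqc) ε' hε'
  have i1 : Integrable fun z => η z * gr f z :=
    (hη.continuous.mul hf.cont_gr).integrable_of_hasCompactSupport hf.cs_gr.mul_left
  have i2 : Integrable (B.indicator fun _ => (1 : ℝ)) :=
    (integrable_indicator_iff measurableSet_closedBall).2 (integrableOn_const measure_closedBall_lt_top.ne)
  filter_upwards [ev_small H K hδ₀, hb K₁ hK₁ h₁, hN K₁ hK₁ h₁, hG.pos K₁ hK₁ h₁,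
    hG.small K₁ hK₁ h₁ (min 1 (min δ₁ (δ₂ / (A + 2)))) (by positivity)] with t a1 a2 a3 a4 a5
  set T := (lev H t).filter fun g => H.ctr g ∈ K₁
  have hT : ∀ g ∈ T, H.len g = t ∧ H.ctr g ∈ K₁ := fun g hg =>
    ⟨(mem_lev H).1 (Finset.mem_filter.1 hg).1, (Finset.mem_filter.1 hg).2⟩
  rw [elv, Finset.sum_product, ← Finset.sum_filter_of_ne (p := fun g => H.ctr g ∈ K₁) fun g hg h => by
    by_contra hc
    refine h (Finset.sum_eq_zero fun σ _ => ?_)
    have e1 : ext φ V f (H.ctr g) = 0 := ext_eq_zero fun h => hc (self_subset_cthickening _ h)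
    have e2 : ext φ V f (H.ctr (σ * g)) = 0 := ext_eq_zero fun h => hc
      (mem_cthickening_of_dist_le _ _ _ _ h (by
        rw [dist_comm]; exact (hK' σ g).trans (((mem_lev H).1 hg).symm ▸ a1.le)))
    simp [dl, e1, e2]]
  refine (riemann T _ _ _ (a3 T hT) (ψ := fun z => S.card * A ^ 2 * (2 * (η z * gr f z) +
    ε' * (M + Mq + 1) * B.indicator (fun _ => (1 : ℝ)) z))
    (((i1.const_mul _).add (i2.const_mul _)).const_mul _) (fun z => ?_)
    (fun g hg => by simpa using a4 g (hT g hg).1 (hT g hg).2) fun g hg z hz => ?_).trans ?_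
  · have := mul_nonneg (hM z).1 (gr_nonneg f z)
    have : 0 ≤ B.indicator (fun _ => (1 : ℝ)) z := indicator_nonneg (fun _ _ => zero_le_one) z
    positivity
  · obtain ⟨g1, g2⟩ := hT g hg
    have b1 := a5 g g1 g2
    have b0 := a4 g g1 g2
    simp only [le_min_iff] at b1
    rw [one_mul] at hz ⊢
    have hz' := mem_ball.1 hz
    have hzB : z ∈ B := mem_closedBall_zero_iff.2 (by
      linarith [norm_le_norm_add_norm_sub' z (φ (H.ctr g)), hR _ g2, mem_ball_iff_norm.1 hz])
    rw [indicator_of_mem hzB]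
    refine (Finset.sum_le_card_nsmul _ _ ((η z + ε') * ((q z + ε') * (A * lam g) ^ 2))
      fun σ _ => ?_).trans ?_
    · obtain ⟨c1, c2⟩ := a2 g g1 g2 _ (hK' σ g)
      have c3 := (convex_closedBall (φ (H.ctr g)) (A * lam g)).norm_image_sub_le_of_norm_fderiv_le
        (𝕜 := ℝ) (C := √(q z + ε')) (fun x _ => hf.diff x) (fun x hx => Real.le_sqrt_of_sq_le (by
          have d1 := (le_div_iff₀ (by positivity)).1 b1.2.2
          have d2 := u₂ (a := x) (b := z) (by
            nlinarith [dist_triangle_right x z (φ (H.ctr g)), mem_closedBall.1 hx])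
          rw [Real.dist_eq] at d2
          exact (sub_le_iff_le_add'.1 (abs_lt.1 d2).2.le :)))
        (mem_closedBall_iff_norm.2 c2) (mem_closedBall_self (by positivity))
      have c4 : η' (H.ctr g) ≤ η z + ε' := by
        have d2 := u₁ (a := φ (H.ctr g)) (b := z) (by rw [dist_comm]; linarith [b1.2.1])
        rw [Real.dist_eq] at d2
        linarith [hη' _ (h₁ g2), (abs_lt.1 d2).2]
      refine mul_le_mul c4 ?_ (sq_nonneg _) (by linarith [(hM z).1])
      rw [dl, ext_of_mem f (h₁ g2), ext_of_mem f c1, ← sq_abs,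
        ← Real.sq_sqrt (x := q z + ε') (by linarith [hq0 z]), ← mul_pow]
      refine pow_le_pow_left₀ (abs_nonneg _) (c3.trans ?_) 2
      rw [norm_sub_rev]
      exact mul_le_mul_of_nonneg_left c2 (Real.sqrt_nonneg _)
    · rw [Finset.card_univ, Fintype.card_coe, nsmul_eq_mul]
      have d1 : (η z + ε') * (q z + ε') ≤ 2 * (η z * gr f z) + ε' * (M + Mq + 1) * 1 := by
        nlinarith [mul_le_mul_of_nonneg_left (norm_sq_le_gr f z) (hM z).1,
          mul_le_mul_of_nonneg_left (add_le_add_three (hM z).2 (hMq' z) hε1) hε'.le]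
      have d2 := mul_le_mul_of_nonneg_left d1
        (by positivity : (0 : ℝ) ≤ S.card * (A * lam g) ^ 2)
      linarith
  · rw [integral_const_mul, integral_add (i1.const_mul _) (i2.const_mul _), integral_const_mul,
      integral_const_mul, integral_indicator measurableSet_closedBall, setIntegral_const, smul_eq_mul]
    have : ε' * D ≤ ε := by linarith
    rw [hD] at this
    linarith

end Crest.Agent.R193.EB
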